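import Crest.Agent.R165.D3.Der

set_option autoImplicit false
noncomputable section
open Classical

/-! # R165/D3/Row: rows of local kernels give localized test functions; contour weights.
* `loc_row`: for `supd x a ≤ 2λ` take the multiplier `θ(· - a) m / (4 (Cθ/λ²) Cm)` (`Mul.mul`, `Mul.shift`, `Mul.toMult`) and the solution
  `s = -(Γ √(dB z) / Ck) • k z` (a row; it solves the equation on `box x (2λ)` because `z` is outside; `WB`: `s² dB ≤ Γ² = (Γ/√λ)² λ`);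
  `k i z = -k z i`.  `1 ≤ dB`.
* `sumB`: `1/dB z ≤ 1/l + Σ_{v ∈ S, supd z v < l} 1/(supd z v + 1)` (`Finset.fold_min`/`Finset.le_fold_min`); a square ring of radius `r`
  has `8 r` sites, so `Σ_{z ∈ box v l} 1/(supd z v + 1) ≤ 8 l + 1` (induction on `l`, `card_box`). -/

namespace Crest.Agent.R165.D3

theorem one_le_dB (S : Finset Site) {l : ℕ} (hl : 1 ≤ l) (x : Site) : 1 ≤ dB S l x := by
  exact B3.one_le_dB S hl x
theorem dB_le (S : Finset Site) (l : ℕ) (x : Site) : dB S l x ≤ l := by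
  exact B3.dB_le S l x
theorem dB_le_of_subset {S S' : Finset Site} (h : S' ⊆ S) (l : ℕ) (x : Site) : dB S l x ≤ dB S' l x := by
  obtain ⟨d, hd, h1, -, h2⟩ := B3.exists_dB S l x
  rw [hd]
  exact B3.le_dB h1 fun v hv => h2 v (h hv)

theorem row_opA_smul (w : Edge → ℝ) (c : ℝ) (s : Fn) (i : HE) : opA w (c • s) i = c * opA w s i := by
  have h := opA_sum w ({()} : Finset Unit) (fun _ => c) (fun _ => s) i
  simp only [Finset.sum_singleton] at h
  exact h

theorem loc_row : ∃ C : ℝ, 0 < C ∧ ∀ (p : Par) (𝔤 : Geom) (j : ℕ) (a : Site) (m : Site → ℝ) (Cm Ck : ℝ) (W : Set Site)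
    (k : HE → HE → ℝ) (z : HE), p.OK → 1 ≤ j → 0 < 𝔤.Gam j → 0 < Cm → 0 < Ck → Mul (p.lam j) Cm m →
    LK 𝔤.w 𝔤.S (p.lam j) W Ck k → ↑(box a (4 * p.lam j + 1)) ⊆ W → z.1 ∈ W → 5 * p.lam j + 1 ≤ supd z.1 a →
    Loc p 𝔤 j a (fun i => theta p j (i.1 - a) * m i.1 * k i z)
      (C * Cm * Ck / ((p.lam j : ℝ) ^ 2 * 𝔤.Gam j * Real.sqrt (dB 𝔤.S (p.lam j) z.1))) := by
  obtain ⟨C, hC, hθ⟩ := exists_mul_theta
  refine ⟨4 * C, by positivity, fun p 𝔤 j a m Cm Ck W k z hp hj hΓ hCm hCk hm hk hW hz hza => ⟨fun i hi => ?_, fun x hx => ?_⟩⟩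
  · exact box_mono a (Nat.div_le_self _ _) (theta_supp hp j (left_ne_zero_of_mul (left_ne_zero_of_mul hi)))
  have hl : 8 ≤ p.lam j := (lam_eq hp j).2.2.1
  have hl' : (0 : ℝ) < p.lam j := by exact_mod_cast (by omega : 0 < p.lam j)
  have hd : 1 ≤ dB 𝔤.S (p.lam j) z.1 := one_le_dB _ (by omega) _
  have hs : 0 < Real.sqrt (dB 𝔤.S (p.lam j) z.1) := Real.sqrt_pos.2 (by linarith)
  have hM := (((hθ p hp j hj).shift a).mul hm).toMult (by positivity) ↑(box x (2 * p.lam j))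
  have hin : ∀ y ∈ box x (2 * p.lam j + 1), y ∈ W ∧ p.lam j ≤ supd z.1 y := fun y hy => by
    have h1 := mem_box.1 hy
    have h2 := supd_triangle y x a
    have h3 := supd_triangle z.1 y a
    exact ⟨hW (Finset.mem_coe.2 (mem_box.2 (by omega))), by omega⟩
  refine ⟨fun i => theta p j (i.1 - a) * m i.1 / (4 * (C / (p.lam j : ℝ) ^ 2) * Cm) *
      ((-(𝔤.Gam j * Real.sqrt (dB 𝔤.S (p.lam j) z.1) / Ck)) • k z) i,
    ⟨_, (-(𝔤.Gam j * Real.sqrt (dB 𝔤.S (p.lam j) z.1) / Ck)) • k z, hM, fun y hy α => ?_, fun y hy α => ?_,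
      fun i _ => rfl⟩, fun i hi => ?_⟩
  · obtain ⟨h1, h2⟩ := hin y (box_mono x (Nat.le_succ _) hy)
    rw [row_opA_smul, (hk z (y, α) hz h1).2.1, if_neg, mul_zero]
    rintro rfl
    rw [supd_self] at h2
    omega
  · obtain ⟨h1, h2⟩ := hin y hy
    have h3 := (hk z (y, α) hz h1).2.2 h2
    have e1 : (𝔤.Gam j / Real.sqrt (p.lam j)) ^ 2 * p.lam j = 𝔤.Gam j ^ 2 / Ck ^ 2 * Ck ^ 2 := by
      rw [div_pow, Real.sq_sqrt hl'.le]
      field_simp
    rw [e1, Pi.smul_apply, smul_eq_mul, mul_pow, neg_sq, div_pow, mul_pow, Real.sq_sqrt (by linarith)]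
    refine le_trans (le_of_eq ?_) (mul_le_mul_of_nonneg_left h3 (by positivity))
    ring
  · obtain ⟨h1, -⟩ := hin i.1 (box_mono x (by omega) hi)
    beta_reduce
    rw [(hk z i hz h1).1, Pi.smul_apply, smul_eq_mul]
    field_simp

theorem sumB (S : Finset Site) {l : ℕ} (hl : 1 ≤ l) (a : Site) {n : ℕ}
    (hn : (S.filter fun v => v ∈ box a (91 * l)).card ≤ n) : SumB S l a (40000 * (n + 1)) := by
  have hl' : (1 : ℝ) ≤ l := by exact_mod_cast hl
  have h1 : ∀ z ∈ box a (90 * l), (dB S l z)⁻¹ ≤ 1 / dB (S.filter fun v => v ∈ box a (91 * l)) l z := fun z hz => by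
    rw [← one_div]
    refine one_div_le_one_div_of_le (lt_of_lt_of_le one_pos (one_le_dB _ hl z)) ?_
    obtain ⟨d, hd, h2, -, h3⟩ := B3.exists_dB (S.filter fun v => v ∈ box a (91 * l)) l z
    rw [hd]
    refine B3.le_dB h2 fun v hv => ?_
    by_cases hb : v ∈ box a (91 * l)
    · exact h3 v (Finset.mem_filter.2 ⟨hv, hb⟩)
    · rw [mem_box] at hb hz
      have h4 := supd_triangle v z a
      rw [supd_comm v z] at h4
      omega
  refine (Finset.sum_le_sum h1).trans ((B3.sum_inv_dB _ _ hl l).trans ?_)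
  have hc : ((box a (90 * l)).card : ℝ) ≤ 32761 * l * l := by
    rw [card_box]
    push_cast
    nlinarith
  have h2 : ((box a (90 * l)).card : ℝ) / l ≤ 32761 * l := by
    rw [div_le_iff₀ (by positivity)]; exact hc
  have h3 : ((box a (90 * l)).card : ℝ) / ((l : ℝ) + 1) ≤ 32761 * l := by
    rw [div_le_iff₀ (by positivity)]; nlinarith
  have h4 : ((S.filter fun v => v ∈ box a (91 * l)).card : ℝ) ≤ n := by exact_mod_cast hn
  have h5 : 8 * ((l : ℝ) + 1) + ((box a (90 * l)).card : ℝ) / ((l : ℝ) + 1) ≤ 40000 * l := by linarith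
  have h6 := mul_le_mul h4 h5 (by positivity) (Nat.cast_nonneg n)
  linarith

end Crest.Agent.R165.D3
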