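import Crest.Agent.R165.D3.Defs

set_option autoImplicit false
noncomputable section
open Classical

/-! # R165/D3/Sgn: gauged kernels are local kernels.
`sgn_fac`: with `σ y = (-1)^#{v ∈ S | v.1 < c.1 - R ∧ v.2 ≤ y.2}` (compare the proof of `exists_gauge` in B1/C): a spin counted in `sgn S x y`
has its row among the rows of the box and is not in the box, so it lies to the left of it.  `lk_sgn`: on the box and its neighbours
`sgn S' i.1 z.1 * g i z = σ i.1 * gaugeF σ (g i) z`, and `opA w s i'` only depends on `w` at the four edges of `i'.1` and on `s` on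
`box i'.1 1` (`opA_gauge`, or unfold with `opA_0 … opA_3`).  `isKer_shift`: `eray {v} e = eray {0} (e.1 - v, e.2)`. -/

namespace Crest.Agent.R165.D3

theorem sgn_comm (S : Finset Site) (x y : Site) : sgn S x y = sgn S y x := by
  simp only [sgn, min_comm x.1, min_comm x.2, max_comm x.2]
theorem sgn_sq (S : Finset Site) (x y : Site) : sgn S x y ^ 2 = 1 := by
  rw [sgn, ← pow_mul, mul_comm, pow_mul]
  simp
theorem sgn_prod (S : Finset Site) (x y : Site) :
    sgn S x y = ∏ v ∈ S, sg (v.1 ≤ min x.1 y.1 ∧ min x.2 y.2 < v.2 ∧ v.2 ≤ max x.2 y.2) := by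
  rw [sgn, ← Finset.prod_const, Finset.prod_filter]
  exact Finset.prod_congr rfl fun v _ => by unfold sg; congr
theorem sgn_uv (S : Finset Site) (e : Edge) : sgn S e.1 (e.1 + uv e.2) = eray S e := by
  obtain ⟨x, j⟩ := e
  rw [sgn_prod]
  fin_cases j
  · refine (Finset.prod_eq_one fun v _ => ?_).trans (eray_0 S x).symm
    simp [sg, uv]
  · refine (Finset.prod_congr rfl fun v _ => ?_).trans (eray_1 S x).symm
    congr 1
    simp only [uv, Fin.mk_one, Matrix.cons_val_one, Matrix.cons_val_zero, Prod.fst_add, Prod.snd_add, eq_iff_iff]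
    omega
theorem sgn_fac (S : Finset Site) (c : Site) (R : ℕ) (h : ∀ v ∈ S, v ∉ box c (R + 1)) :
    ∃ σ, IsSign σ ∧ (∀ x ∈ box c R, ∀ y ∈ box c R, sgn S x y = σ x * σ y) ∧
      ∀ e : Edge, e.1 ∈ box c R → e.1 + uv e.2 ∈ box c R → σ e.1 * σ (e.1 + uv e.2) = eray S e := by
  have key : ∀ x ∈ box c R, ∀ y ∈ box c R, sgn S x y =
      (∏ v ∈ S, sg (v.1 < c.1 - R ∧ v.2 ≤ x.2)) * ∏ v ∈ S, sg (v.1 < c.1 - R ∧ v.2 ≤ y.2) := fun x hx y hy => by
    rw [sgn_prod, ← Finset.prod_mul_distrib]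
    refine Finset.prod_congr rfl fun v hv => ?_
    have h1 := h v hv
    rw [mem_box'] at hx hy h1
    push_cast at h1
    unfold sg
    split_ifs <;> first | (exfalso; omega) | norm_num
  exact ⟨fun y => ∏ v ∈ S, sg (v.1 < c.1 - R ∧ v.2 ≤ y.2), fun y => b1_sign_prod _ _, key,
    fun e h1 h2 => (key _ h1 _ h2).symm.trans (sgn_uv S e)⟩
theorem sgn_sv {s s' : Fn} {x x' : Site} {c : ℝ} (h : ∀ α, s (x, α) = c * s' (x', α)) (n : ℕ) :
    sv s x n = c * sv s' x' n := by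
  unfold sv
  split_ifs <;> simp [h]
theorem sgn_opA {w w' : Edge → ℝ} {s s' : Fn} {x x' : Site} {c : ℝ} {α : Fin 4} (hw : w (edgeOf x α) = w' (edgeOf x' α))
    (h1 : ∀ β, s (x, β) = c * s' (x', β)) (h2 : ∀ β, s (x + dv α, β) = c * s' (x' + dv α, β)) :
    opA w s (x, α) = c * opA w' s' (x', α) := by
  simp only [opA, opp, sgn_sv h1, sgn_sv h2, hw]
  ring
theorem sgn_edge {c x : Site} {R : ℕ} (hx : x ∈ box c R) (α : Fin 4) :
    (edgeOf x α).1 ∈ box c (R + 1) ∧ (edgeOf x α).1 + uv (edgeOf x α).2 ∈ box c (R + 1) := by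
  rw [mem_box'] at hx
  fin_cases α <;> simp [edgeOf, uv, mem_box'] <;> omega
theorem lk_sgn {w w₀ : Edge → ℝ} {S S' : Finset Site} {c : Site} {R l : ℕ} {Ck : ℝ} {g : HE → HE → ℝ} (hg : IsKer w₀ g)
    (hS : ∀ v ∈ S', v ∉ box c (R + 2))
    (hw : ∀ x ∈ box c R, ∀ α, w (edgeOf x α) = w₀ (edgeOf x α) * eray S' (edgeOf x α))
    (hb : ∀ i i' : HE, l ≤ supd i.1 i'.1 → g i i' ^ 2 * (dB S l i.1 * dB S l i'.1) ≤ Ck ^ 2) :
    LK w S l (box c R) Ck fun i i' => sgn S' i.1 i'.1 * g i i' := by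
  obtain ⟨σ, hσ, h1, h2⟩ := sgn_fac S' c (R + 1) hS
  rintro ⟨x, α⟩ ⟨y, β⟩ hx hy
  have hx' : x ∈ box c (R + 1) := box_mono c (Nat.le_succ R) hx
  have hy' : y ∈ box c (R + 1) := box_mono c (Nat.le_succ R) hy
  refine ⟨?_, ?_, fun hl => ?_⟩
  · simp only [sgn_comm S' y x, hg.1 (y, β) (x, α), mul_neg, neg_neg]
  · rw [sgn_opA (w' := gaugeW σ w₀) (s' := gaugeF σ (g (x, α))) (x' := y) (c := σ x) ?_
      (fun γ => by simp only [gaugeF, h1 x hx' y hy', mul_assoc])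
      (fun γ => by simp only [gaugeF, h1 x hx' _ (add_dv_mem_box hy β), mul_assoc]), opA_gauge hσ, gaugeF, hg.2]
    · split_ifs with h
      · obtain ⟨rfl, -⟩ := Prod.ext_iff.1 h
        rw [mul_one, hσ.mul_self]
      · simp
    · rw [hw y hy, gaugeW, h2 _ (sgn_edge hy β).1 (sgn_edge hy β).2, mul_comm]
  · rw [mul_pow, sgn_sq, one_mul]
    exact hb _ _ hl
theorem eray_erase {S : Finset Site} {v : Site} (hv : v ∈ S) (e : Edge) : eray S e = eray {v} e * eray (S.erase v) e := by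
  obtain ⟨x, j⟩ := e
  fin_cases j
  · simp [eray]
  · simp only [Fin.mk_one, eray_1, Finset.prod_singleton]
    exact (Finset.mul_prod_erase S (fun v => sg (v.2 = x.2 + 1 ∧ v.1 ≤ x.1)) hv).symm
theorem sgn_eray_shift (v x : Site) (j : Fin 2) : eray {v} (x, j) = eray {0} (x - v, j) := by
  fin_cases j
  · simp [eray]
  · simp only [Fin.mk_one, eray_1, Finset.prod_singleton]
    congr 1
    simp only [Prod.fst_zero, Prod.snd_zero, Prod.fst_sub, Prod.snd_sub, eq_iff_iff]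
    omega
theorem isKer_shift (v : Site) : IsKer (wOf Set.univ {v}) fun i i' => gBr (i.1 - v, i.2) (i'.1 - v, i'.2) := by
  have hg : IsKer (wOf Set.univ {0}) gBr := exists_gBr.choose_spec.choose_spec.1
  refine ⟨fun i j => hg.1 _ _, ?_⟩
  rintro ⟨x, α⟩ ⟨y, β⟩
  refine (sgn_opA (w' := wOf Set.univ {0}) (s' := gBr (x - v, α)) (x' := y - v) (c := 1) ?_
    (fun γ => ?_) fun γ => ?_).trans ?_
  · fin_cases β <;> simp [wOf, edgeOf, sgn_eray_shift v, sub_right_comm]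
  · simp only [one_mul]
  · simp only [one_mul, add_sub_right_comm]
  · rw [one_mul, hg.2]
    simp [Prod.ext_iff, and_assoc]
theorem gBr_shift_bound : ∃ C : ℝ, ∀ (v : Site) (l : ℕ) (i i' : HE), 1 ≤ l → l ≤ supd i.1 i'.1 + 1 →
    gBr (i.1 - v, i.2) (i'.1 - v, i'.2) ^ 2 * (dB {v} l i.1 * dB {v} l i'.1) ≤ C ^ 2 := by
  obtain ⟨C, -, hC⟩ := exists_gBr.choose_spec
  refine ⟨C, fun v l i i' hl h => ?_⟩
  have e : ∀ x, dB {v} l x = dB {0} l (x - v) := fun x => by simp only [dB, Finset.fold_singleton, supd_sub]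
  rw [e, e]
  refine hC l (i.1 - v, i.2) (i'.1 - v, i'.2) hl ?_
  simpa only [sub_eq_add_neg, supd_add] using h

end Crest.Agent.R165.D3
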