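import Crest.Agent.R165.D3.Defs
import Crest.Agent.R165.DU.Free

set_option autoImplicit false
noncomputable section
open Classical

/-! # R165/D3/Typ: consequences of `GeoOK.typ`.
* `crit_of_far`: type P: if `(x,0) ∈ E` and an edge at `x` is not in `E`, one of its black ends is `BdryB` within distance `1` of `x`
  (edges `(x,1)`, `(x-(0,1),1)`; the horizontal ones are excluded by `Fz` directly).  Free type: `(b,0) ∈ eIn T` for all `b` near `x` puts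
  all sites near `x` in `T`.
* `spin_far`: walk from `v` to `b ∈ Fz \ Bb` inside `box v (supd v b)` (induction on the distance, first horizontally then vertically, or on
  `|Δ₁| + |Δ₂|`); at a step `y → y'` with `|w (y,0)| = tc ≠ |w (y',0)|`: type P: `y' + (1,1)` is `BdryB`; free: a site
  `t ∈ {y' + (1,0), y' + (1,1)}` outside `T` is `FrozenB` through the edge `(t - (1,0), 0)` and the edge `(y + (1,0), 1)` is in `eDual T`.
* `kerB`: `Fz` non-empty forces `E ≠ univ`; `ker_bound 0` (with `hE.toFinset`), `ker_bound_free`, `dB ∅ l x = l`; `K (l + K) ≤ 2 K ℓ'`. -/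

namespace Crest.Agent.R165.D3

theorem typ_abs_eray (S : Finset Site) (e : Edge) : |eray S e| = 1 := by
  rcases eray_sign S e with h | h <;> simp [h]

theorem typ_P {E : Set Edge} {S : Finset Site} {e : Edge} : |wOf E S e| = tc ↔ e ∈ E := by
  have := tc_pos
  unfold wOf
  split_ifs with h
  · simp [h, abs_mul, typ_abs_eray, abs_of_pos this.1]
  · simp [h, this.1.ne]

theorem typ_F {T : Set Site} {S : Finset Site} {e : Edge} : |wFree T S e| = tc ↔ e ∈ eIn T := by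
  have := tc_pos
  unfold wFree
  split_ifs with h
  · simp [h, abs_mul, typ_abs_eray, abs_of_pos this.1]
  · simp [h, typ_abs_eray, this.2.ne']

theorem typ_walk (P : Site → Prop) {v : Site} (hv : P v) (n : ℕ) : ∀ b, supd v b = n → ¬ P b →
    ∃ y y', P y ∧ ¬ P y' ∧ supd y y' ≤ 1 ∧ supd v y' ≤ n := by
  induction n with
  | zero =>
    intro b h hb
    have : b = v := by
      simp only [supd] at h
      exact Prod.ext (by omega) (by omega)
    exact absurd (this ▸ hv) hb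
  | succ n ih =>
    intro b h hb
    obtain ⟨b', h1, h2⟩ : ∃ b', supd v b' = n ∧ supd b' b ≤ 1 := by
      refine ⟨(if b.1 < v.1 then b.1 + 1 else if v.1 < b.1 then b.1 - 1 else b.1,
        if b.2 < v.2 then b.2 + 1 else if v.2 < b.2 then b.2 - 1 else b.2), ?_⟩
      simp only [supd] at h ⊢
      split_ifs <;> omega
    by_cases hb' : P b'
    · exact ⟨b', b, hb', hb, h2, h.le⟩
    · obtain ⟨y, y', a1, a2, a3, a4⟩ := ih b' h1 hb'
      exact ⟨y, y', a1, a2, a3, by omega⟩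

theorem typ_edge (x : Site) (α : Fin 4) : supd x (edgeB0 (edgeOf x α)) ≤ 1 ∧ supd x (edgeB1 (edgeOf x α)) ≤ 1 := by
  obtain ⟨a, b⟩ := x
  induction α using b1_fin4 <;> simp [edgeOf_0, edgeOf_1, edgeOf_2, edgeOf_3, edgeB0, edgeB1, supd]

theorem abs_w_le {p : Par} {K : ℕ} {Γs : ℝ} {𝔤 : Geom} {j : ℕ} (h : GeoOK p K Γs 𝔤 j) (e : Edge) : |𝔤.w e| ≤ 1 := by

  have := tc_pos
  obtain ⟨ρ, -, ⟨E, -, hw, -⟩ | ⟨T, -, -, hw, -⟩⟩ := h.typ
  · rw [hw, wOf]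
    split_ifs
    · rw [abs_mul, typ_abs_eray, mul_one, abs_of_pos this.1]
      exact this.2.le
    · simp
  · rw [hw, wFree, abs_mul, typ_abs_eray, mul_one]
    split_ifs
    · rw [abs_of_pos this.1]
      exact this.2.le
    · simp

theorem crit_of_far {p : Par} {K : ℕ} {Γs : ℝ} {𝔤 : Geom} {j : ℕ} (h : GeoOK p K Γs 𝔤 j) {x : Site}
    (hx : ∀ b ∈ 𝔤.Fz, 4 ≤ supd x b) (α : Fin 4) : 𝔤.w (edgeOf x α) = tc * eray 𝔤.S (edgeOf x α) := by

  have h1 : ∀ b, supd x b ≤ 3 → b ∉ 𝔤.Bb ∧ |𝔤.w (b, 0)| = tc := fun b hb => by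
    by_contra hc
    have : b ∈ 𝔤.Fz := by
      simp only [Geom.Fz, Set.mem_ofPred_eq]
      tauto
    have := hx b this
    omega
  obtain ⟨e0, e1⟩ := typ_edge x α
  obtain ⟨ρ, -, ⟨E, -, hw, hB, -⟩ | ⟨T, -, -, hw, -⟩⟩ := h.typ
  · have h2 : edgeOf x α ∈ E := by
      by_contra hc
      refine (h1 (edgeB1 (edgeOf x α)) (by omega)).1 ?_
      rw [hB]
      refine ⟨⟨_, hc, Or.inr rfl⟩, (x, 0), ?_, by simpa using e1.trans one_le_two⟩
      exact typ_P.1 (hw ▸ (h1 x (by simp [supd_self])).2)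
    rw [hw, wOf, if_pos h2]
  · have h2 : ∀ z, supd x z ≤ 1 → z ∈ T := fun z hz => by
      have h3 := (typ_F.1 (hw ▸ (h1 (z - (1, 0)) (by
        simp only [supd, Prod.fst_sub, Prod.snd_sub] at hz ⊢
        omega)).2)).1
      simpa [edgeB0] using h3
    rw [hw, wFree, if_pos ⟨h2 _ e0, h2 _ e1⟩]

theorem spin_far {p : Par} {K : ℕ} {Γs : ℝ} {𝔤 : Geom} {j : ℕ} (h : GeoOK p K Γs 𝔤 j) {v b : Site} (hv : v ∈ 𝔤.S)
    (hb : b ∈ 𝔤.Fz) : K * p.l (j + 1) ≤ supd v b + 2 := by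

  obtain ⟨h1, h2⟩ := h.spin v hv
  rcases hb with hb | hb
  · have := h2 b hb
    omega
  obtain ⟨y, y', a1, a2, a3, a4⟩ := typ_walk (fun y => |𝔤.w (y, 0)| = tc) h1 _ b rfl hb
  obtain ⟨ρ, -, ⟨E, -, hw, hB, -⟩ | ⟨T, -, -, hw, hB, -⟩⟩ := h.typ
  · rw [hw, typ_P] at a1 a2
    have h3 := h2 (y' + (1, 1)) (by
      rw [hB]
      refine ⟨⟨(y', 0), a2, Or.inr rfl⟩, (y, 0), a1, ?_⟩
      simp only [supd, Prod.fst_add, Prod.snd_add] at a3 ⊢
      omega)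
    simp only [supd, Prod.fst_add, Prod.snd_add] at h3 a4 ⊢
    omega
  · rw [hw, typ_F] at a1 a2
    obtain ⟨t, ht, d1, d2⟩ : ∃ t, t ∉ T ∧ supd (y + (1, 0)) t ≤ 2 ∧ supd v t ≤ supd v y' + 1 := by
      by_cases hc : y' + (1, 0) ∈ T
      · refine ⟨y' + (1, 1), fun hc' => a2 ⟨hc, hc'⟩, ?_⟩
        simp only [supd, Prod.fst_add, Prod.snd_add] at a3 ⊢
        omega
      · refine ⟨y' + (1, 0), hc, ?_⟩
        simp only [supd, Prod.fst_add, Prod.snd_add] at a3 ⊢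
        omega
    have h3 := h2 t (by
      rw [hB]
      refine ⟨⟨(t - (1, 0), 0), fun hc => ht ?_, Or.inl ?_⟩, (y + (1, 0), 1), ⟨a1.1, ?_⟩, d1⟩
      · simpa [uv] using hc.2
      · simp [edgeB0]
      · have := a1.2
        simp only [edgeB1] at this
        convert this using 1
        simp [uv, add_assoc])
    omega

theorem kerB : ∃ (C : ℝ) (K : ℕ), ∀ (p : Par) (K' : ℕ) (Γs : ℝ) (𝔤 : Geom) (j : ℕ), p.OK → K ≤ K' → K ≤ p.l0 →
    GeoOK p K' Γs 𝔤 j → 𝔤.Fz.Nonempty → ∃ w₀ : Edge → ℝ, IsKer w₀ 𝔤.gB ∧ (∀ e, 𝔤.w e = w₀ e * eray 𝔤.S e) ∧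
      ∀ (l : ℕ) (i i' : HE), 1 ≤ l → l ≤ p.l (j + 1) → l ≤ supd i.1 i'.1 + 1 → 𝔤.gB i i' ^ 2 * (l * l) ≤ C ^ 2 := by

  obtain ⟨C₁, K₁, h₁⟩ := ker_bound 0
  obtain ⟨C₂, K₂, h₂⟩ := ker_bound_free
  refine ⟨|C₁| + |C₂|, 2 * (K₁ + K₂), fun p K' Γs 𝔤 j hp hK hl0 h hF => ?_⟩
  have hl := (lam_eq hp (j + 1)).2.2.2.2.2
  obtain ⟨ρ, hρ, hty⟩ := h.typ
  have key : ∀ K₀ l : ℕ, K₀ ≤ K₁ + K₂ → l ≤ p.l (j + 1) → (K₀ * (l + K₀) : ℝ) ≤ ρ := fun K₀ l a1 a2 => by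
    refine le_trans ?_ hρ
    have : K₀ * (l + K₀) ≤ K' * p.l (j + 1) :=
      calc K₀ * (l + K₀) ≤ K₀ * (2 * p.l (j + 1)) := Nat.mul_le_mul_left _ (by omega)
        _ = 2 * K₀ * p.l (j + 1) := by ring
        _ ≤ _ := Nat.mul_le_mul_right _ (by omega)
    exact_mod_cast this
  have n1 := abs_nonneg C₁
  have n2 := abs_nonneg C₂
  obtain ⟨E, hR, hw, hB, hE⟩ | ⟨T, hT, hR, hw, -, -, hg, hf⟩ := hty
  · obtain ⟨hfin, hg, hf⟩ := hE fun hu => by
      obtain ⟨b, hb | hb⟩ := hF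
      · rw [hB, hu] at hb
        obtain ⟨⟨e, he, -⟩, -⟩ := hb
        exact he trivial
      · exact hb (by rw [hw, typ_P, hu]; trivial)
    refine ⟨_, hg, fun e => ?_, fun l i i' a1 a2 a3 => ?_⟩
    · rw [hw, wOf, wOf]
      split_ifs <;> simp [eray]
    · have := h₁ hfin.toFinset ρ ∅ 𝔤.gB (by rwa [Set.Finite.coe_toFinset]) (by simp)
        (by rwa [Set.Finite.coe_toFinset]) hf l i i' a1 (key K₁ l (by omega) a2) a3
      rw [DU.dB_empty, DU.dB_empty, ← sq_abs C₁] at this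
      nlinarith
  · refine ⟨_, hg, fun e => ?_, fun l i i' a1 a2 a3 => ?_⟩
    · rw [hw, wFree, wFree]
      simp [eray]
    · have h3 := (h₂ T ρ 𝔤.gB hT hR hg hf l i i' a1 (key K₂ l (by omega) a2) a3).trans (le_abs_self _)
      have h4 := pow_le_pow_left₀ (by positivity) h3 2
      rw [mul_pow, sq_abs] at h4
      nlinarith


end Crest.Agent.R165.D3
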