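import Crest.Agent.R165.D3.Cut
import Crest.Agent.R165.D3.Row
import Crest.Agent.R165.D3.Sgn
import Crest.Agent.R165.D3.Typ

set_option autoImplicit false
noncomputable section
open Classical

/-! # R165/D3/Geo: the local description of a geometry.
Three cases (`ℓ' = p.l (j+1)`, `K ≥ 20`).  (B) some `b ∈ Fz` has `supd a b ≤ 6ℓ'`: `F = Fz`, `k = k' = sgn S * gB`; all spins are far (`spin_far`),
their `η` vanish on the box (`eta_props`).  (V) otherwise, some spin `v` has `supd a v ≤ 6ℓ'`: `η_{Fz} = 0` on the box, the box is critical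
(`crit_of_far`); `j + 1 < jN`: `F = {v}`, `k = k' = sgn (S.erase v) * gBr (· - v)`, the other spins are far (`sep`);
`j < jN ≤ j + 1`: `F = {v}`, `k' = gS`, `η_S = η_{v}` on the box (`eta_congr`); `jN ≤ j`: `F = S`, `k = k' = gS`.
(N) otherwise `F = ∅`, `k = k' = gσ`.  All `LK` facts by `lk_sgn` (`w₀ = wPl`, `wOf univ {v}`, or from `kerB`), `gPl_bound`, `dB_le`,
`dB_le_of_subset`. -/

namespace Crest.Agent.R165.D3

theorem geo_sq {g d d' e e' C C' : ℝ} (h : g ^ 2 * (e * e') ≤ C ^ 2) (h0 : 0 ≤ d') (h1 : d ≤ e) (h2 : d' ≤ e') (he : 0 ≤ e)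
    (hC : |C| ≤ C') : g ^ 2 * (d * d') ≤ C' ^ 2 := by
  refine le_trans (mul_le_mul_of_nonneg_left (mul_le_mul h1 h2 h0 he) (sq_nonneg g)) (h.trans ?_)
  rw [← sq_abs C]
  exact pow_le_pow_left₀ (abs_nonneg C) hC 2

theorem geo_dB_nonneg (S : Finset Site) (l : ℕ) (x : Site) : 0 ≤ dB S l x := Nat.cast_nonneg _

theorem geo_far {a x b : Site} {R : ℕ} (hx : x ∈ box a R) : supd a b ≤ supd x b + R := by
  have h1 := supd_triangle a x b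
  have h2 := mem_box.1 hx
  rw [supd_comm] at h2
  omega

theorem geo_sigma : ∃ C : ℝ, ∀ (p : Par) (K : ℕ) (Γs : ℝ) (𝔤 : Geom) (j : ℕ), GeoOK p K Γs 𝔤 j → ∀ (a : Site) (l R : ℕ) (Ck : ℝ),
    |C| ≤ Ck → (∀ b ∈ 𝔤.Fz, R + 4 ≤ supd a b) → (∀ v ∈ 𝔤.S, R + 3 ≤ supd a v) → LK 𝔤.w 𝔤.S l (box a R) Ck (gσ 𝔤) := by
  obtain ⟨C, hC⟩ := gPl_bound
  refine ⟨C, fun p K Γs 𝔤 j h a l R Ck hCk hF hS => lk_sgn gPl_ker (fun v hv hb => ?_) (fun x hx α => ?_) fun i i' hl => ?_⟩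
  · have := hS v hv
    rw [mem_box, supd_comm] at hb
    omega
  · refine crit_of_far h (fun b hb => ?_) α
    have := hF b hb
    have := geo_far (b := b) hx
    omega
  · refine geo_sq (e := l) (e' := l) (C := C) ?_ (geo_dB_nonneg _ _ _) (dB_le _ _ _) (dB_le _ _ _) (Nat.cast_nonneg _) hCk
    have h1 := hC i i'
    rw [le_div_iff₀ (by positivity)] at h1
    have h2 : (l : ℝ) ≤ supd i.1 i'.1 + 1 := by exact_mod_cast hl.trans (Nat.le_succ _)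
    have h3 : |gPl i i'| * l ≤ C := (mul_le_mul_of_nonneg_left h2 (abs_nonneg _)).trans h1
    calc gPl i i' ^ 2 * ((l : ℝ) * l) = (|gPl i i'| * l) ^ 2 := by rw [mul_pow, sq_abs]; ring
      _ ≤ C ^ 2 := pow_le_pow_left₀ (by positivity) h3 2

theorem geo_lk {w : Edge → ℝ} {S : Finset Site} {l : ℕ} {W : Set Site} {C Ck : ℝ} {g : HE → HE → ℝ} (hg : IsKer w g)
    (hC : |C| ≤ Ck) (hb : ∀ i i' : HE, l ≤ supd i.1 i'.1 + 1 → g i i' ^ 2 * (dB S l i.1 * dB S l i'.1) ≤ C ^ 2) :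
    LK w S l W Ck g := fun i i' _ _ =>
  ⟨hg.1 i i', hg.2 i i', fun hl => geo_sq (hb i i' (hl.trans (Nat.le_succ _))) (geo_dB_nonneg _ _ _) le_rfl le_rfl
    (geo_dB_nonneg _ _ _) hC⟩

variable {p : Par} {𝔤 : Geom} {m : ℕ} {i i' : HE}

theorem geo_gloc_B (hp : p.OK) (h : ∀ v ∈ 𝔤.S, 4 * p.l m ≤ supd i.1 v) : 𝔤.gloc p m i i' =
    gσ 𝔤 i i' + eta p m 𝔤.Fz i.1 * eta p m 𝔤.Fz i'.1 * (sgn 𝔤.S i.1 i'.1 * 𝔤.gB i i' - gσ 𝔤 i i') := by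
  simp only [Geom.gloc, gσ]
  split_ifs
  · rw [Finset.sum_eq_zero fun v hv => by
      rw [(eta_props hp m {v} i.1).2.2.1 (by rintro b rfl; exact h _ hv), zero_mul, zero_mul], add_zero]
  · rw [(eta_props hp m (↑𝔤.S) i.1).2.2.1 h, zero_mul, zero_mul, add_zero]

theorem geo_gloc_V (hp : p.OK) (hF : ∀ b ∈ 𝔤.Fz, 4 * p.l m ≤ supd i.1 b) (hm : (m : ℕ∞) < 𝔤.jN) {v : Site} (hv : v ∈ 𝔤.S)
    (h : ∀ u ∈ 𝔤.S, u ≠ v → 4 * p.l m ≤ supd i.1 u) : 𝔤.gloc p m i i' =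
    gσ 𝔤 i i' + eta p m {v} i.1 * eta p m {v} i'.1 *
      (sgn (𝔤.S.erase v) i.1 i'.1 * gBr (i.1 - v, i.2) (i'.1 - v, i'.2) - gσ 𝔤 i i') := by
  simp only [Geom.gloc, gσ]
  rw [if_pos hm, (eta_props hp m 𝔤.Fz i.1).2.2.1 hF, zero_mul, zero_mul, add_zero, Finset.sum_eq_single_of_mem v hv]
  intro u hu huv
  rw [(eta_props hp m {u} i.1).2.2.1 (by rintro b rfl; exact h _ hu huv), zero_mul, zero_mul]

theorem geo_gloc_S (hp : p.OK) (hF : ∀ b ∈ 𝔤.Fz, 4 * p.l m ≤ supd i.1 b) (hm : 𝔤.jN ≤ (m : ℕ∞)) : 𝔤.gloc p m i i' =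
    gσ 𝔤 i i' + eta p m ↑𝔤.S i.1 * eta p m ↑𝔤.S i'.1 * (𝔤.gS i i' - gσ 𝔤 i i') := by
  simp only [Geom.gloc, gσ]
  rw [if_neg hm.not_gt, (eta_props hp m 𝔤.Fz i.1).2.2.1 hF, zero_mul, zero_mul, add_zero]

theorem exists_locD : ∃ (C : ℝ) (K : ℕ), 0 < C ∧ ∀ (p : Par) (K' : ℕ) (Γs : ℝ) (𝔤 : Geom) (j : ℕ) (CS : ℝ) (a : Site),
    p.OK → K ≤ K' → K ≤ p.l0 → GeoOK p K' Γs 𝔤 j → 0 ≤ CS →
    (𝔤.jN ≤ (j + 1 : ℕ) → 𝔤.S.Nonempty → IsKer 𝔤.w 𝔤.gS ∧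
      ∀ (l : ℕ) (i i' : HE), 1 ≤ l → l ≤ p.l (j + 1) → l ≤ supd i.1 i'.1 + 1 →
        𝔤.gS i i' ^ 2 * (dB 𝔤.S l i.1 * dB 𝔤.S l i'.1) ≤ CS ^ 2) →
    Nonempty (LocD p 𝔤 j (C + CS) a) := by
  obtain ⟨C₁, h₁⟩ := geo_sigma
  obtain ⟨C₂, K₂, h₂⟩ := kerB
  obtain ⟨C₃, h₃⟩ := gBr_shift_bound
  refine ⟨|C₁| + |C₂| + |C₃| + 1, max K₂ 20, by positivity, fun p K Γs 𝔤 j CS a hp hK hK0 hG hCS hS => ?_⟩
  have c₁ : |C₁| ≤ |C₁| + |C₂| + |C₃| + 1 + CS := by linarith [abs_nonneg C₂, abs_nonneg C₃]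
  have c₂ : |C₂| ≤ |C₁| + |C₂| + |C₃| + 1 + CS := by linarith [abs_nonneg C₁, abs_nonneg C₃]
  have c₃ : |C₃| ≤ |C₁| + |C₂| + |C₃| + 1 + CS := by linarith [abs_nonneg C₁, abs_nonneg C₂]
  have c₄ : |CS| ≤ |C₁| + |C₂| + |C₃| + 1 + CS := by
    rw [abs_of_nonneg hCS]; linarith [abs_nonneg C₁, abs_nonneg C₂, abs_nonneg C₃]
  generalize |C₁| + |C₂| + |C₃| + 1 + CS = Ck at c₁ c₂ c₃ c₄ ⊢
  have hσ := fun l R => h₁ p K Γs 𝔤 j hG a l R Ck c₁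
  have l1 : p.l j ≤ p.l (j + 1) ∧ 20 ≤ p.l (j + 1) := by
    have e1 := lam_eq hp j
    have e2 := lam_eq hp (j + 1)
    omega
  have hK20 : 20 * p.l (j + 1) ≤ K * p.l (j + 1) := Nat.mul_le_mul_right _ ((le_max_right _ _).trans hK)
  by_cases hB : ∃ b ∈ 𝔤.Fz, supd a b ≤ 6 * p.l (j + 1)
  · obtain ⟨b, hb, hab⟩ := hB
    have hv : ∀ v ∈ 𝔤.S, 13 * p.l (j + 1) ≤ supd a v := fun v hv => by
      have e1 := spin_far hG hv hb
      have e2 := supd_triangle v a b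
      rw [supd_comm v a] at e2
      omega
    obtain ⟨w₀, k1, k2, k3⟩ := h₂ p K Γs 𝔤 j hp ((le_max_left _ _).trans hK) ((le_max_left _ _).trans hK0) hG ⟨b, hb⟩
    have hk : ∀ l, 1 ≤ l → l ≤ p.l (j + 1) → LK 𝔤.w 𝔤.S l (box a (p.l (j + 1))) Ck
        fun i i' => sgn 𝔤.S i.1 i'.1 * 𝔤.gB i i' := fun l hl hl' =>
      lk_sgn k1 (fun v h hb => by have := hv v h; rw [mem_box, supd_comm] at hb; omega) (fun x _ α => k2 _)
        fun i i' h => geo_sq (k3 l i i' hl hl' (h.trans (Nat.le_succ _))) (geo_dB_nonneg _ _ _) (dB_le _ _ _) (dB_le _ _ _)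
          (Nat.cast_nonneg _) c₂
    exact ⟨⟨𝔤.Fz, _, _, fun l hl hl' => ⟨hk l hl hl', hk l hl hl'⟩,
      fun l R _ hR hF => hσ l R (fun b hb => by have := hF b hb; omega) fun v h => by have := hv v h; omega,
      fun i i' hi _ => geo_gloc_B hp fun v h => by have := hv v h; have := geo_far (b := v) hi; omega,
      fun i i' hi _ => geo_gloc_B hp fun v h => by have := hv v h; have := geo_far (b := v) hi; omega⟩⟩
  push Not at hB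
  have hF : ∀ x ∈ box a (p.l (j + 1)), ∀ b ∈ 𝔤.Fz, 4 * p.l (j + 1) ≤ supd x b := fun x hx b hb => by
    have := hB b hb
    have := geo_far (b := b) hx
    omega
  have hF' : ∀ x ∈ box a (p.l (j + 1)), ∀ b ∈ 𝔤.Fz, 4 * p.l j ≤ supd x b := fun x hx b hb => by
    have := hF x hx b hb
    omega
  have hσ' : ∀ l R, R ≤ p.l (j + 1) → (∀ v ∈ 𝔤.S, R + 3 ≤ supd a v) → LK 𝔤.w 𝔤.S l (box a R) Ck (gσ 𝔤) :=
    fun l R hR => hσ l R fun b hb => by have := hB b hb; omega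
  by_cases hV : ∃ v ∈ 𝔤.S, supd a v ≤ 6 * p.l (j + 1)
  swap
  · push Not at hV
    have e : ∀ m, p.l m ≤ p.l (j + 1) → ∀ i i' : HE, i.1 ∈ box a (p.l (j + 1)) → 𝔤.gloc p m i i' =
        gσ 𝔤 i i' + eta p m ∅ i.1 * eta p m ∅ i'.1 * (gσ 𝔤 i i' - gσ 𝔤 i i') := fun m hm i i' hi => by
      rw [geo_gloc_B hp fun v h => by have := hV v h; have := geo_far (b := v) hi; omega,
        (eta_props hp m 𝔤.Fz i.1).2.2.1 fun b hb => by have := hF _ hi b hb; omega]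
      ring
    have hk := fun l => hσ' l _ le_rfl fun v h => by have := hV v h; omega
    exact ⟨⟨∅, gσ 𝔤, gσ 𝔤, fun l _ _ => ⟨hk l, hk l⟩, fun l R _ hR _ => hσ' l R hR fun v h => by have := hV v h; omega,
      fun i i' hi _ => e j l1.1 i i' hi, fun i i' hi _ => e _ le_rfl i i' hi⟩⟩
  obtain ⟨v, hv, hav⟩ := hV
  have hkS : 𝔤.jN ≤ (j + 1 : ℕ) → ∀ l, 1 ≤ l → l ≤ p.l (j + 1) → LK 𝔤.w 𝔤.S l (box a (p.l (j + 1))) Ck 𝔤.gS :=
    fun h l hl hl' => geo_lk (hS h ⟨v, hv⟩).1 c₄ fun i i' h' => (hS h ⟨v, hv⟩).2 l i i' hl hl' h'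
  rcases le_or_gt 𝔤.jN (j : ℕ∞) with hj | hj
  · have hj' : 𝔤.jN ≤ (j + 1 : ℕ) := hj.trans (by exact_mod_cast Nat.le_succ j)
    exact ⟨⟨↑𝔤.S, 𝔤.gS, 𝔤.gS, fun l hl hl' => ⟨hkS hj' l hl hl', hkS hj' l hl hl'⟩,
      fun l R _ hR h => hσ' l R hR fun u hu => by have := h u hu; omega,
      fun i i' hi _ => geo_gloc_S hp (hF' _ hi) hj, fun i i' hi _ => geo_gloc_S hp (hF _ hi) hj'⟩⟩
  have hu : ∀ u ∈ 𝔤.S, u ≠ v → 14 * p.l (j + 1) ≤ supd a u := fun u hu huv => by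
    have e1 := (hG.sep hj).1 u hu v hv huv
    have e2 := supd_triangle u a v
    rw [supd_comm u a] at e2
    omega
  have hu' : ∀ x ∈ box a (p.l (j + 1)), ∀ u ∈ 𝔤.S, u ≠ v → 4 * p.l (j + 1) ≤ supd x u := fun x hx u h h' => by
    have := hu u h h'
    have := geo_far (b := u) hx
    omega
  have hk : ∀ l, 1 ≤ l → LK 𝔤.w 𝔤.S l (box a (p.l (j + 1))) Ck
      fun i i' => sgn (𝔤.S.erase v) i.1 i'.1 * gBr (i.1 - v, i.2) (i'.1 - v, i'.2) := fun l hl =>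
    lk_sgn (isKer_shift v) (fun u h hb => by
        have := hu u (Finset.mem_of_mem_erase h) (Finset.ne_of_mem_erase h); rw [mem_box, supd_comm] at hb; omega)
      (fun x hx α => by
        rw [crit_of_far hG (fun b hb => by have := hF x hx b hb; omega) α, eray_erase hv, wOf, if_pos (Set.mem_univ _),
          mul_assoc])
      fun i i' h => geo_sq (h₃ v l i i' hl (h.trans (Nat.le_succ _))) (geo_dB_nonneg _ _ _)
        (dB_le_of_subset (Finset.singleton_subset_iff.2 hv) _ _) (dB_le_of_subset (Finset.singleton_subset_iff.2 hv) _ _)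
        (geo_dB_nonneg _ _ _) c₃
  have hσv : ∀ l R, 1 ≤ l → R ≤ p.l (j + 1) → (∀ b ∈ ({v} : Set Site), R + 5 ≤ supd a b) →
      LK 𝔤.w 𝔤.S l (box a R) Ck (gσ 𝔤) := fun l R _ hR h => hσ' l R hR fun u h' => by
    by_cases huv : u = v
    · have := h u huv
      omega
    · have := hu u h' huv
      omega
  have hl : ∀ i i' : HE, i.1 ∈ box a (p.l (j + 1)) → i'.1 ∈ box a (p.l (j + 1)) → _ := fun i i' hi _ =>
    geo_gloc_V (i' := i') hp (hF' _ hi) hj hv fun u h h' => by have := hu' _ hi u h h'; omega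
  rcases le_or_gt 𝔤.jN ((j + 1 : ℕ) : ℕ∞) with hj' | hj'
  · refine ⟨⟨{v}, _, 𝔤.gS, fun l h h' => ⟨hk l h, hkS hj' l h h'⟩, hσv, hl, fun i i' hi hi' => ?_⟩⟩
    have e : ∀ x ∈ box a (p.l (j + 1)), eta p (j + 1) ↑𝔤.S x = eta p (j + 1) {v} x := fun x hx =>
      eta_congr hp _ fun b hb => ⟨fun h => by_contra fun h' => by have := hu' x hx b h h'; omega, fun h => h ▸ hv⟩
    rw [geo_gloc_S hp (hF _ hi) hj', e _ hi, e _ hi']
  · exact ⟨⟨{v}, _, _, fun l h _ => ⟨hk l h, hk l h⟩, hσv, hl,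
      fun i i' hi _ => geo_gloc_V hp (hF _ hi) hj' hv (hu' _ hi)⟩⟩

end Crest.Agent.R165.D3
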