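import Crest.Agent.R165.D3.Pair

/-! # R165/D3/Gloc: pair representations of `gloc` -/

set_option autoImplicit false
noncomputable section
open Classical

namespace Crest.Agent.R165.D3

theorem boxsub {a b : Site} {r R : ℕ} (h : supd a b + r ≤ R) : (↑(box b r) : Set Site) ⊆ ↑(box a R) :=
  Finset.coe_subset.2 (box_subset_box (mem_box.2 (supd_comm a b ▸ le_rfl)) h)

theorem boxsub' (a : Site) {r R : ℕ} (h : r ≤ R) : (↑(box a r) : Set Site) ⊆ ↑(box a R) :=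
  Finset.coe_subset.2 (box_mono a h)

theorem eta_one {p : Par} (hp : p.OK) (j : ℕ) {F : Set Site} {a β x c : Site} {r : ℕ} (hβ : β ∈ F) (hx : x ∈ box c r)
    (h : supd a β + supd a c + r ≤ 2 * p.l j) : eta p j F x = 1 := by
  refine (eta_props hp j F x).2.1 ⟨β, hβ, ?_⟩
  have h1 := supd_triangle x c β
  have h2 := supd_triangle c a β
  rw [supd_comm c a] at h2
  have := mem_box.1 hx
  omega

theorem pr_gloc : ∃ C : ℝ, 0 < C ∧ ∀ (p : Par) (𝔤 : Geom) (j : ℕ) (a b : Site) (Ck D : ℝ) (_ : LocD p 𝔤 j Ck a),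
    p.OK → 0 < Ck → 0 ≤ D → (∀ e, |𝔤.w e| ≤ 1) →
    (1 ≤ j → 0 < 𝔤.Gam j → SumB 𝔤.S (p.lam j) a D → 25 * p.lam j ≤ supd a b → supd a b ≤ 31 * p.lam (j + 1) →
      PR p 𝔤 j a b (𝔤.gloc p (j + 1)) (C * Ck ^ 2 * D / 𝔤.Gam j ^ 2)) ∧
    (1 ≤ j → 0 < 𝔤.Gam j → SumB 𝔤.S (p.lam j) a D → supd a b ≤ 30 * p.lam j →
      PR p 𝔤 j a b (fun i i' => 𝔤.gloc p (j + 1) i i' - 𝔤.gloc p j i i') (C * Ck ^ 2 * D / 𝔤.Gam j ^ 2)) ∧
    (∀ g, LK 𝔤.w 𝔤.S (p.lam (j + 1)) (box a (90 * p.lam (j + 1))) Ck g → 0 < 𝔤.Gam (j + 1) →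
      SumB 𝔤.S (p.lam (j + 1)) a D → supd a b ≤ 30 * p.lam (j + 1) →
      PR p 𝔤 (j + 1) a b (fun i i' => g i i' - 𝔤.gloc p (j + 1) i i') (C * Ck ^ 2 * D / 𝔤.Gam (j + 1) ^ 2)) := by
  obtain ⟨C₁, hC₁, hfar⟩ := pr_far
  obtain ⟨C₂, hC₂, hnear⟩ := pr_near
  obtain ⟨Cm, hCm, hη⟩ := exists_mul_eta
  have hCm0 : 0 < Cm := by linarith
  refine ⟨3 * (C₁ + C₂) * Cm ^ 2, by positivity, fun p 𝔤 j a b Ck D d hp hCk hD0 hw => ?_⟩
  obtain ⟨e1, -, e2, -, e3, -⟩ := lam_eq hp j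
  obtain ⟨e4, -, e5, -, -, -⟩ := lam_eq hp (j + 1)
  have h1 : ∀ l, Mul l Cm fun _ => (1 : ℝ) := fun l => D3.mul_one hCm
  refine ⟨fun hj hΓ hD hab hab' => ?_, fun hj hΓ hD hab => ?_, fun g hg hΓ hD hab => ?_⟩
  · have hm : Mul (p.lam j) Cm (eta p (j + 1) d.F) := (hη p hp (j + 1) (by omega) d.F).mono (by omega) (by omega) le_rfl
    have sub : (↑(box a (20 * p.lam j)) ∪ ↑(box b (20 * p.lam j)) : Set Site) ⊆ ↑(box a (p.l (j + 1))) :=
      Set.union_subset (boxsub' a (by omega)) (boxsub (by omega))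
    have F := fun m m' k hm hm' (hk : LK 𝔤.w 𝔤.S (p.lam j) (box a (p.l (j + 1))) Ck k) =>
      hfar p 𝔤 j a b m m' Cm Ck D k hp hj hΓ hCm0 hCk hw hm hm' (hk.mono sub) hab hD
    have hk' := (d.hk (p.lam j) (by omega) (by omega)).2
    have hB : 0 ≤ C₁ * Cm ^ 2 * Ck ^ 2 * D / 𝔤.Gam j ^ 2 := by positivity
    have hB' : 0 ≤ C₂ * Cm ^ 2 * Ck ^ 2 * D / 𝔤.Gam j ^ 2 := by positivity
    have hl : ∀ i i' : HE, i.1 ∈ box a (p.lam j) → i'.1 ∈ box b (p.lam j) → _ := fun i i' hi hi' =>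
      d.hl' i i' (box_mono a (by omega) hi) (boxsub (a := a) (by omega) hi')
    by_cases hF : ∃ β ∈ d.F, supd a β ≤ 150 * p.lam (j + 1)
    · obtain ⟨β, hβ, hβ'⟩ := hF
      refine ((F _ _ _ (h1 _) (h1 _) hk').congr hp fun i i' hi hi' => ?_).mono (by ring_nf at hB hB' ⊢; linarith)
      rw [hl i i' hi hi', eta_one hp _ (a := a) hβ hi (by rw [supd_self]; omega), eta_one hp _ (a := a) hβ hi' (by omega)]
      ring
    · have hσ := d.hσ (p.lam j) (p.l (j + 1)) (by omega) le_rfl fun β hβ => by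
        have : ¬ supd a β ≤ 150 * p.lam (j + 1) := fun h => hF ⟨β, hβ, h⟩
        omega
      refine ((((F _ _ _ (h1 _) (h1 _) hσ).add (F _ _ _ hm hm hk')).add ((F _ _ _ hm hm hσ).smul (t := -1)
        (by simp))).congr hp fun i i' hi hi' => ?_).mono (by ring_nf at hB hB' ⊢; linarith)
      rw [hl i i' hi hi']
      ring
  · have hm' : Mul (p.lam j) Cm (eta p (j + 1) d.F) := (hη p hp (j + 1) (by omega) d.F).mono (by omega) (by omega) le_rfl
    have hm := hη p hp j hj d.F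
    have F := fun m m' k k' hm hm' hk hk' =>
      hnear p 𝔤 j a b m m' Cm Ck D k k' hp hj hΓ hCm0 hCk hw hm hm' hk hk' (by omega) hD
    obtain ⟨hk, hk'⟩ := d.hk (p.lam j) (by omega) (by omega)
    replace hk := hk.mono (boxsub' a (show 90 * p.lam j ≤ _ by omega))
    replace hk' := hk'.mono (boxsub' a (show 90 * p.lam j ≤ _ by omega))
    have hB : 0 ≤ C₁ * Cm ^ 2 * Ck ^ 2 * D / 𝔤.Gam j ^ 2 := by positivity
    have hB' : 0 ≤ C₂ * Cm ^ 2 * Ck ^ 2 * D / 𝔤.Gam j ^ 2 := by positivity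
    have hl : ∀ i i' : HE, i.1 ∈ box a (p.lam j) → i'.1 ∈ box b (p.lam j) → _ := fun i i' hi hi' =>
      d.hl i i' (box_mono a (by omega) hi) (boxsub (a := a) (by omega) hi')
    have hl' : ∀ i i' : HE, i.1 ∈ box a (p.lam j) → i'.1 ∈ box b (p.lam j) → _ := fun i i' hi hi' =>
      d.hl' i i' (box_mono a (by omega) hi) (boxsub (a := a) (by omega) hi')
    by_cases hF : ∃ β ∈ d.F, supd a β ≤ 150 * p.lam j
    · obtain ⟨β, hβ, hβ'⟩ := hF
      refine ((F _ _ _ _ (h1 _) (h1 _) hk' hk).congr hp fun i i' hi hi' => ?_).mono (by ring_nf at hB hB' ⊢; linarith)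
      rw [hl i i' hi hi', hl' i i' hi hi', eta_one hp j (a := a) hβ hi (by rw [supd_self]; omega),
        eta_one hp j (a := a) hβ hi' (by omega), eta_one hp (j + 1) (a := a) hβ hi (by rw [supd_self]; omega),
        eta_one hp (j + 1) (a := a) hβ hi' (by omega)]
      ring
    · have hσ := d.hσ (p.lam j) (90 * p.lam j) (by omega) (by omega) fun β hβ => by
        have : ¬ supd a β ≤ 150 * p.lam j := fun h => hF ⟨β, hβ, h⟩
        omega
      refine (((F _ _ _ _ hm' hm' hk' hσ).add ((F _ _ _ _ hm hm hk hσ).smul (t := -1)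
        (by simp))).congr hp fun i i' hi hi' => ?_).mono (by ring_nf at hB hB' ⊢; linarith)
      rw [hl i i' hi hi', hl' i i' hi hi']
      ring
  · have hm := hη p hp (j + 1) (by omega) d.F
    have F := fun m m' k k' hm hm' hk hk' =>
      hnear p 𝔤 (j + 1) a b m m' Cm Ck D k k' hp (by omega) hΓ hCm0 hCk hw hm hm' hk hk' (by omega) hD
    have hk' := (d.hk (p.lam (j + 1)) (by omega) (by omega)).2.mono (boxsub' a (show 90 * p.lam (j + 1) ≤ _ by omega))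
    have hB : 0 ≤ C₁ * Cm ^ 2 * Ck ^ 2 * D / 𝔤.Gam (j + 1) ^ 2 := by positivity
    have hB' : 0 ≤ C₂ * Cm ^ 2 * Ck ^ 2 * D / 𝔤.Gam (j + 1) ^ 2 := by positivity
    have hl' : ∀ i i' : HE, i.1 ∈ box a (p.lam (j + 1)) → i'.1 ∈ box b (p.lam (j + 1)) → _ := fun i i' hi hi' =>
      d.hl' i i' (box_mono a (by omega) hi) (boxsub (a := a) (by omega) hi')
    by_cases hF : ∃ β ∈ d.F, supd a β ≤ 150 * p.lam (j + 1)
    · obtain ⟨β, hβ, hβ'⟩ := hF
      refine ((F _ _ _ _ (h1 _) (h1 _) hg hk').congr hp fun i i' hi hi' => ?_).mono (by ring_nf at hB hB' ⊢; linarith)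
      rw [hl' i i' hi hi', eta_one hp (j + 1) (a := a) hβ hi (by rw [supd_self]; omega),
        eta_one hp (j + 1) (a := a) hβ hi' (by omega)]
      ring
    · have hσ := d.hσ (p.lam (j + 1)) (90 * p.lam (j + 1)) (by omega) (by omega) fun β hβ => by
        have : ¬ supd a β ≤ 150 * p.lam (j + 1) := fun h => hF ⟨β, hβ, h⟩
        omega
      refine (((F _ _ _ _ (h1 _) (h1 _) hg hσ).add ((F _ _ _ _ hm hm hk' hσ).smul (t := -1)
        (by simp))).congr hp fun i i' hi hi' => ?_).mono (by ring_nf at hB hB' ⊢; linarith)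
      rw [hl' i i' hi hi']
      ring

end Crest.Agent.R165.D3
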