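import Crest.Agent.R165.D3.Abs

set_option autoImplicit false
noncomputable section
open Classical

/-! # R165/D3/Zero: the Gram bound at scale `0`.
`gram_of_rep` with `Ω = univ`, `κ = W`, `c k = 1`, `f k = t • δ_k`, `f' k = t⁻¹ • G k`, `t = δ Γ₀`.  For `u ∈ Ups 0 x`, `‖u‖₁ ≤ 1/Γ₀`:
`Σ_k ⟨u, δ_k⟩² ≤ ‖u‖₁²`, and `Σ_k (Σ_i u_i G k i)² ≤ ‖u‖₁ Σ_i |u_i| Σ_k (G k i)² ≤ ‖u‖₁² · 4 (2R+1)² M²` (Cauchy–Schwarz). -/

namespace Crest.Agent.R165.D3

theorem zero_cs {κ : Type} [Fintype κ] (u : GV Ix) (F : κ → Ix → ℝ) {B : ℝ} (h : ∀ i, ∑ k, F k i ^ 2 ≤ B) :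
    ∑ k, pr u (F k) ^ 2 ≤ (∑ i ∈ u.support, |u i|) ^ 2 * B := by
  have h1 : ∀ k, pr u (F k) ^ 2 ≤ (∑ i ∈ u.support, |u i|) * ∑ i ∈ u.support, |u i| * F k i ^ 2 := fun k => by
    rw [pr, Finsupp.linearCombination_apply, Finsupp.sum]
    refine Finset.sum_sq_le_sum_mul_sum_of_sq_le_mul _ (fun i _ => abs_nonneg _) (fun i _ => by positivity) fun i _ => le_of_eq ?_
    rw [smul_eq_mul, mul_pow, ← mul_assoc, abs_mul_abs_self, sq (u i)]
  refine (Finset.sum_le_sum fun k _ => h1 k).trans ?_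
  rw [← Finset.mul_sum, Finset.sum_comm, sq, mul_assoc]
  refine mul_le_mul_of_nonneg_left ?_ (Finset.sum_nonneg fun i _ => abs_nonneg _)
  rw [Finset.sum_mul]
  refine Finset.sum_le_sum fun i _ => ?_
  rw [← Finset.mul_sum]
  exact mul_le_mul_of_nonneg_left (h i) (abs_nonneg _)

theorem zero_U {p : Par} {𝔤 : Geom} (hΓ : 0 < 𝔤.Gam 0) {u : GV Ix} (hu : u ∈ ⋃ x, 𝔤.U p 0 x) {κ : Type} [Fintype κ]
    (f : κ → Fn) {B : ℝ} (hB : 0 ≤ B) (h : ∀ i, ∑ k, f k i ^ 2 ≤ B) :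
    ∑ k, |(1 : ℝ)| * pr u (extF (f k)) ^ 2 ≤ B / 𝔤.Gam 0 ^ 2 := by
  simp only [abs_one, one_mul]
  obtain ⟨x, hx | ⟨k, b, t, -, -, -, rfl⟩⟩ := Set.mem_iUnion.1 hu
  · have h1 := hx.2
    rw [if_pos rfl] at h1
    have h2 := zero_cs u (fun k => extF (f k)) (B := B) fun i => by
      rcases i with i | i
      · exact h i
      · simpa [extF] using hB
    refine h2.trans ?_
    have h0 : 0 ≤ ∑ i ∈ u.support, |u i| := Finset.sum_nonneg fun i _ => abs_nonneg _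
    rw [le_div_iff₀ (by positivity)]
    have h3 : (𝔤.Gam 0 * ∑ i ∈ u.support, |u i|) ^ 2 ≤ 1 := pow_le_one₀ (by positivity) h1
    nlinarith [mul_le_mul_of_nonneg_right h3 hB]
  · simp only [pr, dz, map_smul, Finsupp.linearCombination_single, extF, Sum.elim_inr, Pi.zero_apply, smul_zero]
    simp only [ne_eq, OfNat.ofNat_ne_zero, not_false_eq_true, zero_pow, Finset.sum_const_zero]
    positivity

theorem gram_zero (p : Par) (𝔤 : Geom) (G : HE → HE → ℝ) (R : ℕ) (M δ : ℝ) (hδ : 0 < δ) (hΓ : 0 < 𝔤.Gam 0)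
    (hM : ∀ i i', |G i i'| ≤ M) (hR : ∀ i i' : HE, R < supd i.1 i'.1 → G i i' = 0)
    (h : 2 * (2 * R + 1) * M ≤ δ ^ 2 * 𝔤.Gam 0 ^ 2) : Gram (⋃ x, 𝔤.U p 0 x) (extG G) δ := by
  have hM0 : 0 ≤ M := (abs_nonneg _).trans (hM (0, 0) (0, 0))
  have ht : 0 < δ * 𝔤.Gam 0 := mul_pos hδ hΓ
  refine gram_of_rep Set.univ (fun _ _ _ _ => trivial) fun W _ => ⟨W, inferInstance, fun _ => 1,
    fun k i => if i = k then δ * 𝔤.Gam 0 else 0, fun k i => (δ * 𝔤.Gam 0)⁻¹ * G k i, fun i hi i' _ => ?_, fun u hu => ⟨?_, ?_⟩⟩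
  · beta_reduce
    rw [Finset.sum_eq_single ⟨i, hi⟩ (fun k _ hk => by rw [if_neg fun h => hk (Subtype.ext h.symm)]; ring) (by simp)]
    simp only [if_true]
    field_simp
  · refine (zero_U hΓ hu _ (sq_nonneg (δ * 𝔤.Gam 0)) fun i => ?_).trans (le_of_eq (by field_simp))
    by_cases hi : i ∈ W
    · rw [Finset.sum_eq_single ⟨i, hi⟩ (fun k _ hk => by rw [if_neg fun h => hk (Subtype.ext h.symm)]; ring) (by simp)]
      simp
    · rw [Finset.sum_eq_zero fun k _ => by rw [if_neg fun h : i = k => hi (h ▸ k.2)]; ring]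
      positivity
  · refine (zero_U hΓ hu _ (B := (δ * 𝔤.Gam 0)⁻¹ ^ 2 * (2 * (2 * R + 1) * M) ^ 2) (by positivity) fun i => ?_).trans ?_
    · simp only [mul_pow _ (G _ _), ← Finset.mul_sum]
      refine mul_le_mul_of_nonneg_left ?_ (by positivity)
      rw [Finset.sum_coe_sort W fun k => G k i ^ 2]
      have h1 : ∑ k ∈ W, G k i ^ 2 ≤ ∑ k ∈ box i.1 R ×ˢ (Finset.univ : Finset (Fin 4)), G k i ^ 2 := by
        rw [← Finset.sum_filter_of_ne (p := fun k : HE => k.1 ∈ box i.1 R) fun k _ hk => ?_]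
        · refine Finset.sum_le_sum_of_subset_of_nonneg (fun k hk => ?_) fun _ _ _ => sq_nonneg _
          simpa using (Finset.mem_filter.1 hk).2
        · by_contra h'
          rw [mem_box_supd, not_le] at h'
          exact hk (by rw [hR k i h']; ring)
      refine h1.trans ((Finset.sum_le_card_nsmul _ _ (M ^ 2) fun k _ => ?_).trans (le_of_eq ?_))
      · exact sq_le_sq' (abs_le.1 (hM k i)).1 (abs_le.1 (hM k i)).2
      · rw [Finset.card_product, card_box, Finset.card_univ, Fintype.card_fin, nsmul_eq_mul]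
        push_cast
        ring
    · have h1 : (2 * (2 * R + 1) * M) ^ 2 ≤ (δ ^ 2 * 𝔤.Gam 0 ^ 2) ^ 2 := pow_le_pow_left₀ (by positivity) h 2
      rw [div_le_iff₀ (by positivity), inv_pow, inv_mul_le_iff₀ (by positivity)]
      exact h1.trans (le_of_eq (by ring))

end Crest.Agent.R165.D3
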