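import Crest.Agent.R165.D3.Psi
import Crest.Agent.R165.D3.Zero
import Crest.Agent.R165.D3.Gloc
import Crest.Agent.R165.D3.Geo

/-! # R165 block D3: cut-offs and Gram representations of the covariances
(statements FROZEN, add lemmas freely in namespace `R165.D3`). route.md §D3. -/

set_option autoImplicit false
noncomputable section
open Classical

namespace Crest.Agent.R165

/-! `Par.OK` is in `D3/Defs`, `chi_props`, `eta_props` in `D3/Cut`. -/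

namespace D3

theorem small {X δ Γ : ℝ} (hX : 0 ≤ X) (hδ : 0 < δ) (h : (X + 1) / δ ≤ Γ) : X / Γ ^ 2 ≤ δ ^ 2 := by
  rw [div_le_iff₀ hδ] at h
  have h1 : 0 < Γ := by by_contra h0; nlinarith
  rw [div_le_iff₀ (by positivity), ← mul_pow]
  nlinarith

theorem count_le {R N l : ℕ} {B : ℝ} (hl : 1 ≤ l) (hR : R ≤ N * l) (hB : 0 ≤ B) :
    25 * (2 * (R : ℝ) + 1) ^ 2 * B / (l : ℝ) ^ 2 ≤ 25 * (2 * N + 1) ^ 2 * B := by
  have h1 : (1 : ℝ) ≤ l := by exact_mod_cast hl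
  have h2 : (R : ℝ) ≤ N * l := by exact_mod_cast hR
  rw [div_le_iff₀ (by positivity)]
  have h3 : (2 * (R : ℝ) + 1) ^ 2 ≤ ((2 * N + 1) * l) ^ 2 := by gcongr; linarith
  nlinarith [mul_le_mul_of_nonneg_right h3 hB]

theorem LK.mono_const {w : Edge → ℝ} {S : Finset Site} {l : ℕ} {W : Set Site} {Ck Ck' : ℝ} {k : HE → HE → ℝ}
    (h : LK w S l W Ck k) (hC : Ck ^ 2 ≤ Ck' ^ 2) : LK w S l W Ck' k := fun i i' hi hi' =>
  ⟨(h i i' hi hi').1, (h i i' hi hi').2.1, fun hl => ((h i i' hi hi').2.2 hl).trans hC⟩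

theorem LK.abs_le {w : Edge → ℝ} {S : Finset Site} {a : Site} {R : ℕ} {Ck : ℝ} {k : HE → HE → ℝ}
    (h : LK w S 1 (box a (R + 1)) Ck k) (hC : 0 ≤ Ck) (hw : ∀ e, |w e| ≤ 1) {i i' : HE} (hi : i.1 ∈ box a R)
    (hi' : i'.1 ∈ box a R) : |k i i'| ≤ 2 / tc * (1 + Ck) := by
  have t0 := tc_pos.1
  have t1 := tc_pos.2
  have m1 : ∀ {x : Site}, x ∈ box a R → x ∈ (↑(box a (R + 1)) : Set Site) := fun hx => box_mono a (by omega) hx
  have far : ∀ z : HE, z.1 ∈ box a (R + 1) → 1 ≤ supd i.1 z.1 → |k i z| ≤ Ck := fun z hz h1 => by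
    have h2 := (h i z (m1 hi) hz).2.2 h1
    have h3 := one_le_dB S le_rfl i.1
    have h4 := one_le_dB S le_rfl z.1
    have h5 : 1 ≤ dB S 1 i.1 * dB S 1 z.1 := by nlinarith
    exact abs_le_of_sq_le_sq (by nlinarith [sq_nonneg (k i z)]) hC
  rw [div_mul_eq_mul_div, le_div_iff₀ t0]
  by_cases h1 : 1 ≤ supd i.1 i'.1
  · have := far i' (m1 hi') h1
    nlinarith [abs_nonneg (k i i')]
  · have h2 : ∀ α, opA0 (k i) i'.1 α ^ 2 ≤ (1 + Ck) ^ 2 := fun α => by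
      have e1 : opA0 (k i) i'.1 α + w (edgeOf i'.1 α) * opp (k i) i'.1 α = if (i'.1, α) = i then 1 else 0 :=
        (h i (i'.1, α) (m1 hi) (m1 hi')).2.1
      have e2 : |opp (k i) i'.1 α| ≤ Ck := by
        rw [opp_eq (k i) (i'.1, α), abs_mul, abs_eps, one_mul]
        refine far _ (add_dv_mem_box hi' α) ?_
        have h3 := supd_dv i'.1 α
        have h4 := supd_triangle (i'.1 + dv α) i.1 i'.1
        rw [supd_comm (i'.1 + dv α) i.1] at h4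
        change 1 ≤ supd i.1 (i'.1 + dv α)
        omega
      have e3 : |w (edgeOf i'.1 α) * opp (k i) i'.1 α| ≤ Ck := by
        rw [abs_mul]
        exact (mul_le_mul (hw _) e2 (abs_nonneg _) zero_le_one).trans_eq (one_mul _)
      rw [_root_.abs_le] at e3
      refine sq_le_sq' ?_ ?_ <;> split_ifs at e1 <;> linarith
    have h3 := b1_A0_sq (k i) i'.1
    have h4 : ∑ α, opA0 (k i) i'.1 α ^ 2 ≤ 4 * (1 + Ck) ^ 2 :=
      (Finset.sum_le_sum fun α _ => h2 α).trans (by simp)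
    have h5 : k i i' ^ 2 ≤ ∑ α, k i (i'.1, α) ^ 2 :=
      Finset.single_le_sum (f := fun α => k i (i'.1, α) ^ 2) (fun α _ => sq_nonneg _) (Finset.mem_univ i'.2)
    have h6 : 0 ≤ 4 * Real.sqrt 2 * ∑ α, mas (k i) (i'.1, α) ^ 2 := by positivity
    have h7 : (|k i i'| * tc) ^ 2 ≤ (2 * (1 + Ck)) ^ 2 := by
      rw [mul_pow, sq_abs]
      nlinarith [mul_le_mul_of_nonneg_left h5 (sq_nonneg tc)]
    exact le_of_sq_le_sq h7 (by positivity)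

/-- the first step from the local description -/
theorem gram_first : ∃ M : ℝ, 0 < M ∧ ∀ (p : Par) (𝔤 : Geom) (Ck δ : ℝ), p.OK → 0 ≤ Ck → 0 < δ → 0 < 𝔤.Gam 0 →
    (∀ e, |𝔤.w e| ≤ 1) → (∀ a, Nonempty (LocD p 𝔤 0 Ck a)) → M * (1 + Ck) * p.l 1 ≤ δ ^ 2 * 𝔤.Gam 0 ^ 2 →
    Gram (⋃ x, 𝔤.U p 0 x) (𝔤.Cov p 0) δ := by
  obtain ⟨C, hC⟩ := gPl_bound
  have t0 := tc_pos.1
  have hC0 : 0 ≤ C := by simpa [supd_self] using (abs_nonneg _).trans (hC (0, 0) (0, 0))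
  refine ⟨2 * (2 * C + 2 / tc), by positivity, fun p 𝔤 Ck δ hp hCk hδ hΓ hw hd h => ?_⟩
  obtain ⟨e1, -, e2, -⟩ := lam_eq hp 1
  have e0 : ∀ i i' : HE, (𝔤.gle p (0 + 1) - 𝔤.gle p 0) i i' = chi p 1 (i.1 - i'.1) * 𝔤.gloc p 1 i i' := fun i i' => by
    simp [Geom.gle, chi]
  have z : ∀ i i' : HE, 31 * p.lam 1 < supd i.1 i'.1 → (𝔤.gle p (0 + 1) - 𝔤.gle p 0) i i' = 0 := fun i i' hi => by
    rw [e0, (chi_props hp 1 _).2.2.1 (by rwa [supd_sub]), zero_mul]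
  refine gram_zero p 𝔤 _ (31 * p.lam 1) ((2 * C + 2 / tc) * (1 + Ck)) δ hδ hΓ (fun i i' => ?_) z (le_trans ?_ h)
  · by_cases hi : 31 * p.lam 1 < supd i.1 i'.1
    · rw [z i i' hi, abs_zero]; positivity
    obtain ⟨d⟩ := hd i.1
    have hi' : i'.1 ∈ box i.1 (31 * p.lam 1) := by rw [mem_box, supd_comm]; omega
    have a1 : |gσ 𝔤 i i'| ≤ C := by
      have s1 : |sgn 𝔤.S i.1 i'.1| = 1 := by rw [← sq_eq_sq₀ (abs_nonneg _) zero_le_one, sq_abs, sgn_sq, one_pow]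
      rw [gσ, abs_mul, s1, one_mul]
      exact (hC i i').trans (div_le_self hC0 (by linarith [Nat.cast_nonneg (α := ℝ) (supd i.1 i'.1)]))
    have a2 : |d.k' i i'| ≤ 2 / tc * (1 + Ck) :=
      ((d.hk 1 le_rfl (by rw [zero_add]; omega)).2.mono (boxsub' _ (by rw [zero_add]; omega))).abs_le hCk hw
        (self_mem_box _ _) hi'
    have a3 := (eta_props hp (0 + 1) d.F i.1).1
    have a4 := (eta_props hp (0 + 1) d.F i'.1).1
    have a5 := (chi_props hp 1 (i.1 - i'.1)).1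
    have a6 : |𝔤.gloc p 1 i i'| ≤ (2 * C + 2 / tc) * (1 + Ck) := by
      have e := d.hl' i i' (self_mem_box _ _) (box_mono _ (by rw [zero_add]; omega) hi')
      rw [zero_add] at e a3 a4
      rw [e]
      refine (abs_add_le _ _).trans ?_
      rw [abs_mul, abs_of_nonneg (mul_nonneg a3.1 a4.1)]
      have b1 := abs_sub (d.k' i i') (gσ 𝔤 i i')
      have b2 : eta p 1 d.F i.1 * eta p 1 d.F i'.1 ≤ 1 := mul_le_one₀ a3.2 a4.1 a4.2
      nlinarith [mul_le_mul_of_nonneg_right b2 (abs_nonneg (d.k' i i' - gσ 𝔤 i i')), mul_nonneg hC0 hCk]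
    rw [e0, abs_mul, abs_of_nonneg a5.1]
    exact (mul_le_mul a5.2 a6 (abs_nonneg _) zero_le_one).trans_eq (one_mul _)
  · have h1 : 2 * ((31 * p.lam 1 : ℕ) : ℝ) + 1 ≤ p.l 1 := by exact_mod_cast (by omega : 2 * (31 * p.lam 1) + 1 ≤ p.l 1)
    have h2 : 0 ≤ (2 * C + 2 / tc) * (1 + Ck) := by positivity
    nlinarith [mul_le_mul_of_nonneg_right h1 h2]

theorem card_le_one {p : Par} (hp : p.OK) {K : ℕ} (hK : 2 ≤ K) {Γs : ℝ} {𝔤 : Geom} {j : ℕ} (h : GeoOK p K Γs 𝔤 j)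
    (hj : (j : ℕ∞) < 𝔤.jN) (a : Site) : (𝔤.S.filter fun v => v ∈ box a (91 * p.lam j)).card ≤ 1 := by
  refine Finset.card_le_one.2 fun v hv v' hv' => ?_
  by_contra hne
  obtain ⟨h1, h2⟩ := Finset.mem_filter.1 hv
  obtain ⟨h3, h4⟩ := Finset.mem_filter.1 hv'
  have h5 := (h.sep hj).1 v h1 v' h3 hne
  have h6 := supd_triangle v a v'
  rw [supd_comm a v'] at h6
  rw [mem_box] at h2 h4
  obtain ⟨-, -, e2, -, e3, -⟩ := lam_eq hp j
  obtain ⟨e4, -⟩ := lam_eq hp (j + 1)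
  have h7 : 2 * p.l (j + 1) ≤ K * p.l (j + 1) := Nat.mul_le_mul_right _ hK
  omega

end D3
open D3

theorem gle_antisym {p : Par} (hp : p.OK) {𝔤 : Geom} (hB : 𝔤.Fz.Nonempty → Antisym 𝔤.gB) (j : ℕ)
    (hS : 𝔤.jN ≤ j → 𝔤.S.Nonempty → Antisym 𝔤.gS) : Antisym (𝔤.gle p j) := by
  intro i i'
  have hχ : chi p j (i'.1 - i.1) = chi p j (i.1 - i'.1) := by rw [← neg_sub, (chi_props hp j _).2.2.2.1]
  have hσ : gPl i' i = -gPl i i' := gPl_ker.1 i i'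
  have hv : ∀ v : Site, gBr (i'.1 - v, i'.2) (i.1 - v, i.2) = -gBr (i.1 - v, i.2) (i'.1 - v, i'.2) := fun v =>
    (isKer_shift v).1 i i'
  have h0 : ∀ (F : Set Site) x, ¬ F.Nonempty → eta p j F x = 0 := fun F x hF =>
    (eta_props hp j F x).2.2.1 fun b hb => absurd ⟨b, hb⟩ hF
  have hB' : eta p j 𝔤.Fz i.1 * 𝔤.gB i' i = -(eta p j 𝔤.Fz i.1 * 𝔤.gB i i') := by
    by_cases h : 𝔤.Fz.Nonempty
    · rw [hB h i i', mul_neg]
    · rw [h0 _ _ h]; ring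
  simp only [Geom.gle, Geom.gloc, hχ, hσ, hv, sgn_comm _ i'.1 i.1]
  split_ifs with hj
  · rw [← mul_neg, neg_add, ← Finset.sum_neg_distrib]
    congr 2
    · linear_combination (eta p j 𝔤.Fz i'.1 * sgn 𝔤.S i.1 i'.1) * hB'
    · exact Finset.sum_congr rfl fun v _ => by ring
  · have hS' : eta p j ↑𝔤.S i.1 * 𝔤.gS i' i = -(eta p j ↑𝔤.S i.1 * 𝔤.gS i i') := by
      by_cases h : 𝔤.S.Nonempty
      · rw [hS (not_lt.1 hj) h i i', mul_neg]
      · rw [h0 _ _ (by simpa using h)]; ring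
    linear_combination (chi p j (i.1 - i'.1) * eta p j 𝔤.Fz i'.1 * sgn 𝔤.S i.1 i'.1) * hB' +
      (chi p j (i.1 - i'.1) * eta p j ↑𝔤.S i'.1) * hS'

/-- **Gram bound for one step** -/
theorem gram_step (L : ℕ) (δ : ℝ) (hδ : 0 < δ) : ∃ (K : ℕ) (Γs : ℝ), 1 ≤ Γs ∧ ∀ (p : Par) (K' : ℕ) (Γs' : ℝ) (𝔤 : Geom) (j : ℕ),
    p.OK → p.L = L → K ≤ K' → Γs ≤ Γs' → K ≤ p.l0 → GeoOK p K' Γs' 𝔤 j → Gram (⋃ x, 𝔤.U p j x) (𝔤.Cov p j) δ := by
  obtain ⟨C, K, hC, hloc⟩ := exists_locD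
  obtain ⟨C', hC', hpr⟩ := pr_gloc
  obtain ⟨M, hM, hfirst⟩ := gram_first
  let X : ℝ := 25 * (2 * (31 * L : ℕ) + 1) ^ 2 * (C' * (C + 1) ^ 2 * 40000 * 4)
  have hX : 0 ≤ X := by positivity
  refine ⟨max K 2, 1 + (X + 1) / δ + 2 * M * (C + 1) / δ ^ 2, by
    have : 0 ≤ (X + 1) / δ + 2 * M * (C + 1) / δ ^ 2 := by positivity
    linarith, fun p K' Γs' 𝔤 j hp hL hK hΓs hl0 h => ?_⟩
  have q1 : 0 ≤ (X + 1) / δ := by positivity
  have q2 : 0 ≤ 2 * M * (C + 1) / δ ^ 2 := by positivity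
  have hΓ1 : 1 ≤ Γs' := by linarith
  have hΓ : 1 ≤ 𝔤.Gam j := hΓ1.trans h.gam.1
  have hw := abs_w_le h
  obtain ⟨CS, n, hCS, hd, hn, hb⟩ : ∃ (CS : ℝ) (n : ℕ), 0 ≤ CS ∧ (∀ a, Nonempty (LocD p 𝔤 j (C + CS) a)) ∧
      (∀ a, (𝔤.S.filter fun v => v ∈ box a (91 * p.lam j)).card ≤ n) ∧
      (1 + CS) ^ 2 * (n + 1) * Γs' ^ 2 ≤ 4 * 𝔤.Gam j ^ 2 := by
    by_cases hc : 𝔤.jN ≤ (j + 1 : ℕ) ∧ 𝔤.S.Nonempty
    · obtain ⟨CS, h1, h2, h3⟩ := h.kerS hc.1 hc.2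
      refine ⟨CS, 𝔤.S.card, by linarith, fun a => hloc p K' Γs' 𝔤 j CS a hp (le_of_max_le_left hK)
        (le_of_max_le_left hl0) h (by linarith) fun _ _ => h3, fun a => Finset.card_filter_le _ _, ?_⟩
      have c0 : (0 : ℝ) ≤ 𝔤.S.card := Nat.cast_nonneg _
      have c1 : (Γs' * CS * (𝔤.S.card + 1)) ^ 2 ≤ 𝔤.Gam j ^ 2 := by gcongr
      have c2 : (1 + CS) ^ 2 * (𝔤.S.card + 1) ≤ (2 * CS) ^ 2 * (𝔤.S.card + 1) ^ 2 := by
        gcongr
        · linarith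
        · nlinarith
      nlinarith [mul_le_mul_of_nonneg_right c2 (sq_nonneg Γs')]
    · refine ⟨0, 1, le_rfl, fun a => hloc p K' Γs' 𝔤 j 0 a hp (le_of_max_le_left hK) (le_of_max_le_left hl0) h le_rfl
        fun h1 h2 => absurd ⟨h1, h2⟩ hc, fun a => ?_, ?_⟩
      · by_cases hS : 𝔤.S.Nonempty
        · refine card_le_one hp (le_of_max_le_right hK) h ?_ a
          have : ¬ 𝔤.jN ≤ (j + 1 : ℕ) := fun h1 => hc ⟨h1, hS⟩
          exact lt_trans (by exact_mod_cast Nat.lt_succ_self j) (not_le.1 this)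
        · simp [Finset.not_nonempty_iff_eq_empty.1 hS]
      · have : Γs' ^ 2 ≤ 𝔤.Gam j ^ 2 := by gcongr; exact h.gam.1
        push_cast
        nlinarith [sq_nonneg Γs']
  have n0 : (0 : ℝ) ≤ n := Nat.cast_nonneg _
  rcases Nat.eq_zero_or_pos j with rfl | hj
  · refine hfirst p 𝔤 (C + CS) δ hp (by positivity) hδ (by linarith) hw hd ?_
    have l0 : (0 : ℝ) ≤ p.l 1 := Nat.cast_nonneg _
    have g1 : 1 ≤ 𝔤.Gam 1 := hΓ1.trans h.gam.2.1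
    have g2 : Γs' * p.l 1 ≤ 𝔤.Gam 0 := le_trans (le_mul_of_one_le_right (by positivity) g1) (h.gam.2.2.2 rfl).1
    have g3 : 2 * M * (C + 1) ≤ Γs' * δ ^ 2 := by
      rw [← div_le_iff₀ (by positivity)]; linarith
    have g4 : 1 + CS ≤ 2 * 𝔤.Gam 0 := by
      refine le_of_sq_le_sq ?_ (by positivity)
      have : (1 + CS) ^ 2 * 1 * 1 ≤ (1 + CS) ^ 2 * (n + 1) * Γs' ^ 2 := by
        gcongr
        · linarith
        · nlinarith
      nlinarith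
    have g5 : 1 + (C + CS) ≤ (C + 1) * (2 * 𝔤.Gam 0) := by nlinarith [mul_nonneg hC.le hCS]
    calc M * (1 + (C + CS)) * p.l 1 ≤ M * ((C + 1) * (2 * 𝔤.Gam 0)) * p.l 1 := by gcongr
      _ = 2 * M * (C + 1) * (𝔤.Gam 0 * p.l 1) := by ring
      _ ≤ Γs' * δ ^ 2 * (𝔤.Gam 0 * p.l 1) := by gcongr
      _ = δ ^ 2 * 𝔤.Gam 0 * (Γs' * p.l 1) := by ring
      _ ≤ δ ^ 2 * 𝔤.Gam 0 * 𝔤.Gam 0 := by gcongr
      _ = _ := by ring
  obtain ⟨e1, -, e2, e6, e3, -⟩ := lam_eq hp j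
  have hB : 0 ≤ C' * (C + CS) ^ 2 * (40000 * (n + 1)) / 𝔤.Gam j ^ 2 := by positivity
  rw [← Set.biUnion_univ]
  refine gram_of_pairs hp hj Set.univ _ (fun a b i i' => Psi p j (a - b) * 𝔤.gloc p (j + 1) i i' -
    (if supd a b ≤ 30 * p.lam j then 1 else 0) * 𝔤.gloc p j i i') (31 * p.lam (j + 1)) _ δ hB (fun i i' _ _ => ?_)
    (fun a b hab => ?_) (fun a b hab => ?_) ?_
  · simp only [Pi.sub_apply, Geom.gle]
    rw [chi_succ_eq hp, chi_eq hp hj, dsum_comb hp]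
  · obtain ⟨d⟩ := hd a
    obtain ⟨f1, f2, -⟩ := hpr p 𝔤 j a b (C + CS) (40000 * (n + 1)) d hp (by positivity) (by positivity) hw
    have hD := sumB 𝔤.S (show 1 ≤ p.lam j by omega) a (hn a)
    by_cases h30 : supd a b ≤ 30 * p.lam j
    · refine (f2 hj (by linarith) hD h30).congr hp fun i i' _ _ => ?_
      rw [if_pos h30, (psi_props hp j a b).2.1 (by omega), one_mul, one_mul]
    · refine ((f1 hj (by linarith) hD (by omega) hab).smul (t := Psi p j (a - b)) ?_).congr hp fun i i' _ _ => ?_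
      · rw [abs_of_nonneg (psi_props hp j a b).1.1]; exact (psi_props hp j a b).1.2
      · rw [if_neg h30, zero_mul, sub_zero]
  · funext i i'
    rw [(psi_props hp j a b).2.2 hab, if_neg (by omega)]
    simp
  · refine (count_le (N := 31 * L) (by omega) (by rw [e6, hL, mul_assoc]) hB).trans (le_trans ?_ (small hX hδ
      (show (X + 1) / δ ≤ Γs' by linarith)))
    have c1 : (C + CS) ^ 2 ≤ ((C + 1) * (1 + CS)) ^ 2 := by gcongr; nlinarith [mul_nonneg hC.le hCS]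
    have c2 : C' * (C + CS) ^ 2 * (40000 * (n + 1)) / 𝔤.Gam j ^ 2 ≤ C' * (C + 1) ^ 2 * 40000 * 4 / Γs' ^ 2 := by
      rw [div_le_div_iff₀ (by positivity) (by positivity)]
      calc C' * (C + CS) ^ 2 * (40000 * (n + 1)) * Γs' ^ 2
          ≤ C' * ((C + 1) * (1 + CS)) ^ 2 * (40000 * (n + 1)) * Γs' ^ 2 := by gcongr
        _ = C' * (C + 1) ^ 2 * 40000 * ((1 + CS) ^ 2 * (n + 1) * Γs' ^ 2) := by ring
        _ ≤ C' * (C + 1) ^ 2 * 40000 * (4 * 𝔤.Gam j ^ 2) := by gcongr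
        _ = _ := by ring
    refine (mul_le_mul_of_nonneg_left c2 (by positivity)).trans_eq ?_
    simp only [X]; ring

/-- the first step, with the explicit constant -/
theorem gram_zero : ∃ (K : ℕ) (C : ℝ), 0 ≤ C ∧ ∀ (p : Par) (K' : ℕ) (Γs : ℝ) (𝔤 : Geom), p.OK → K ≤ K' → K ≤ p.l0 → 1 ≤ Γs →
    1 < 𝔤.jN ∨ 𝔤.S = ∅ → GeoOK p K' Γs 𝔤 0 → Gram (⋃ x, 𝔤.U p 0 x) (𝔤.Cov p 0) (Real.sqrt (C * p.l 1) / 𝔤.Gam 0) := by
  obtain ⟨C, K, hC, hloc⟩ := exists_locD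
  obtain ⟨M, hM, hfirst⟩ := gram_first
  refine ⟨K, M * (1 + (C + 0)), by positivity, fun p K' Γs 𝔤 hp hK hl0 hΓs hN h => ?_⟩
  have hΓ : 0 < 𝔤.Gam 0 := by linarith [h.gam.1]
  obtain ⟨e1, -, e2, -⟩ := lam_eq hp 1
  have l0 : (0 : ℝ) < p.l 1 := by exact_mod_cast (by omega : 0 < p.l 1)
  refine hfirst p 𝔤 (C + 0) _ hp (by positivity) (by positivity) hΓ (abs_w_le h)
    (fun a => hloc p K' Γs 𝔤 0 0 a hp hK hl0 h le_rfl fun h1 h2 => ?_) (le_of_eq ?_)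
  · rcases hN with hN | hN
    · exact absurd (by simpa using h1) (not_le.2 hN)
    · exact absurd hN h2.ne_empty
  · rw [div_pow, Real.sq_sqrt (by positivity)]
    field_simp

/-- **Gram bound for the last integration**: `g` is the true kernel, the volume has diameter `N₀ ℓ_j`. -/
theorem gram_final (L : ℕ) : ∃ K : ℕ, ∀ (N₀ n : ℕ) (CS : ℝ), ∃ Γf : ℝ, ∀ (p : Par) (K' : ℕ) (Γs : ℝ) (𝔤 : Geom) (j : ℕ)
    (g : HE → HE → ℝ) (x₀ : Site), p.OK → p.L = L → K ≤ K' → K ≤ p.l0 → 1 ≤ Γs → GeoOK p K' Γs 𝔤 j → 𝔤.S.card ≤ n →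
    IsKer 𝔤.w g → (𝔤.jN ≤ (j + 1 : ℕ) → 𝔤.S.Nonempty → 𝔤.gS = g) →
    (∀ (l : ℕ) (i i' : HE), 1 ≤ l → l ≤ p.l (j + 1) → l ≤ supd i.1 i'.1 + 1 →
      g i i' ^ 2 * (dB 𝔤.S l i.1 * dB 𝔤.S l i'.1) ≤ CS ^ 2) → Γf ≤ 𝔤.Gam (j + 1) →
    Gram (⋃ x ∈ box x₀ (N₀ * p.l (j + 1)), 𝔤.U p (j + 1) x) (extG (g - 𝔤.gle p (j + 1))) 1 := by
  obtain ⟨C, K, hC, hloc⟩ := exists_locD
  obtain ⟨C', hC', hpr⟩ := pr_gloc
  obtain ⟨C₁, hC₁, hfar⟩ := pr_far
  refine ⟨K, fun N₀ n CS => ?_⟩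
  let Y : ℝ := (C + |CS|) ^ 2 * (40000 * (n + 1))
  have hY : 0 ≤ Y := by positivity
  let X : ℝ := 25 * (2 * (200 * N₀ + 4 : ℕ) + 1) ^ 2 * ((C' + C₁) * Y)
  have hX : 0 ≤ X := by positivity
  refine ⟨X + 1, fun p K' Γs 𝔤 j g x₀ hp _ hK hl0 _ h hn hg hgS hb hΓf => ?_⟩
  have hΓ : 0 < 𝔤.Gam (j + 1) := by linarith
  have hw := abs_w_le h
  obtain ⟨e1, -, e2, -⟩ := lam_eq hp (j + 1)
  have hLK : ∀ W, LK 𝔤.w 𝔤.S (p.lam (j + 1)) W (C + |CS|) g := fun W i i' _ _ =>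
    ⟨hg.1 i i', hg.2 i i', fun hl => (hb _ i i' (by omega) (by omega) (by omega)).trans
      (by rw [← sq_abs]; gcongr; linarith)⟩
  have hB : 0 ≤ (C' + C₁) * Y / 𝔤.Gam (j + 1) ^ 2 := by positivity
  let V := box x₀ (N₀ * p.l (j + 1) + 2 * p.lam (j + 1))
  refine gram_of_pairs hp (by omega) ↑(box x₀ (N₀ * p.l (j + 1))) _ (fun a b i i' => if a ∈ V ∧ b ∈ V then
    1 * g i i' - (if supd a b ≤ 30 * p.lam (j + 1) then 1 else 0) * 𝔤.gloc p (j + 1) i i' else 0)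
    (2 * (N₀ * p.l (j + 1) + 2 * p.lam (j + 1))) _ 1 hB (fun i i' hi hi' => ?_) (fun a b _ => ?_) (fun a b hab => ?_) ?_
  · have inV : ∀ (y a : Site), (∃ x ∈ (↑(box x₀ (N₀ * p.l (j + 1))) : Set Site), y ∈ box x (p.lam (j + 1))) →
        theta p (j + 1) (y - a) ≠ 0 → a ∈ V := fun y a ⟨x, hx, hy⟩ ha => by
      have h1 := mem_box.1 (theta_supp hp _ ha)
      have h2 := mem_box.1 hy
      have h3 := mem_box.1 (Finset.mem_coe.1 hx)
      have h4 := supd_triangle a y x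
      have h5 := supd_triangle a x x₀
      rw [supd_comm a y] at h4
      exact mem_box.2 (by omega)
    have e := dsum_comb hp (j + 1) i.1 i'.1 (fun _ _ => 1) (fun a b => if supd a b ≤ 30 * p.lam (j + 1) then 1 else 0)
      (g i i') (𝔤.gloc p (j + 1) i i')
    simp only [_root_.mul_one, one_eq hp, ← chi_eq hp (Nat.succ_le_succ (Nat.zero_le j))] at e
    simp only [Pi.sub_apply, Geom.gle]
    rw [← one_mul (g i i'), e]
    refine finsum_congr fun a => finsum_congr fun b => ?_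
    by_cases h1 : theta p (j + 1) (i.1 - a) = 0
    · simp [h1]
    by_cases h2 : theta p (j + 1) (i'.1 - b) = 0
    · simp [h2]
    rw [if_pos (And.intro (inV _ _ hi h1) (inV _ _ hi' h2))]
    simp
  · by_cases hV : a ∈ V ∧ b ∈ V
    · have hD := sumB 𝔤.S (show 1 ≤ p.lam (j + 1) by omega) a ((Finset.card_filter_le _ _).trans hn)
      have y1 : 0 ≤ C' * Y / 𝔤.Gam (j + 1) ^ 2 := by positivity
      have y2 : 0 ≤ C₁ * Y / 𝔤.Gam (j + 1) ^ 2 := by positivity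
      by_cases h30 : supd a b ≤ 30 * p.lam (j + 1)
      · obtain ⟨d⟩ := hloc p K' Γs 𝔤 j |CS| a hp hK hl0 h (abs_nonneg _) fun h1 h2 => by
          rw [hgS h1 h2, sq_abs]; exact ⟨hg, hb⟩
        refine (((hpr p 𝔤 j a b _ (40000 * (n + 1)) d hp (by positivity) (by positivity) hw).2.2 g (hLK _) hΓ hD
          h30).congr hp fun i i' _ _ => ?_).mono (by simp only [Y] at y2 ⊢; ring_nf at y2 ⊢; linarith)
        rw [if_pos hV, if_pos h30, one_mul, one_mul]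
      · refine ((hfar p 𝔤 (j + 1) a b _ _ 1 _ (40000 * (n + 1)) g hp (by omega) hΓ one_pos (by positivity) hw
          (D3.mul_one le_rfl) (D3.mul_one le_rfl) (hLK _) (by omega) hD).congr hp fun i i' _ _ => ?_).mono
          (by simp only [Y] at y1 ⊢; ring_nf at y1 ⊢; linarith)
        rw [if_pos hV, if_neg h30]; ring
    · exact (PR.zero p 𝔤 _ a b hB).congr hp fun i i' _ _ => by rw [if_neg hV]; rfl
  · funext i i'
    refine if_neg fun hV => ?_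
    have h1 := mem_box.1 hV.1
    have h2 := mem_box.1 hV.2
    have h3 := supd_triangle a x₀ b
    rw [supd_comm x₀ b] at h3
    omega
  · refine (count_le (N := 200 * N₀ + 4) (by omega) (le_of_eq (by rw [e1]; ring)) hB).trans
      (le_trans (le_of_eq ?_) (small (Γ := 𝔤.Gam (j + 1)) hX one_pos (by rwa [div_one])))
    simp only [X]; ring

/-- localized form for spin-free plane geometries (used for the torus): base points `a ∈ 𝒜`, any bounded `ψ` vanishing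
near `0`, any local kernel `k` on the region -/
theorem gram_local (N : ℕ) (Ck δ : ℝ) (hδ : 0 < δ) : ∃ Γs : ℝ, ∀ (p : Par) (𝔤 : Geom) (j : ℕ) (𝒜 : Set Site) (ψ : Site → Site → ℝ)
    (k : HE → HE → ℝ), p.OK → 1 ≤ j → 𝔤.w = wPl → 𝔤.S = ∅ → Γs ≤ 𝔤.Gam j → (∀ a b, |ψ a b| ≤ 1) →
    (∀ a b, ψ a b ≠ 0 → a ∈ 𝒜 ∧ 25 * p.lam j ≤ supd a b ∧ supd a b ≤ N * p.l j) →
    (∀ a b, ψ a b ≠ 0 → ∀ i i' : HE, i.1 ∈ box a (20 * p.lam j) ∪ box b (20 * p.lam j) →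
      i'.1 ∈ box a (20 * p.lam j) ∪ box b (20 * p.lam j) →
        k i' i = -k i i' ∧ opA wPl (k i) i' = (if i' = i then 1 else 0) ∧ (p.lam j ≤ supd i.1 i'.1 → |k i i'| * p.lam j ≤ Ck)) →
    Gram (⋃ x, 𝔤.U p j x)
      (extG fun i i' => (∑ᶠ a, ∑ᶠ b, theta p j (i.1 - a) * theta p j (i'.1 - b) * ψ a b) * k i i') δ := by
  obtain ⟨C, hC, hfar⟩ := pr_far
  let Y : ℝ := C * 1 ^ 2 * (|Ck| + 1) ^ 2 * (40000 * ((0 : ℕ) + 1))
  have hY : 0 ≤ Y := by positivity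
  let X : ℝ := 25 * (2 * (100 * N : ℕ) + 1) ^ 2 * Y
  have hX : 0 ≤ X := by positivity
  refine ⟨(X + 1) / δ, fun p 𝔤 j 𝒜 ψ k hp hj hw hS hΓs hψ hsup hk => ?_⟩
  have hΓ : 0 < 𝔤.Gam j := lt_of_lt_of_le (by positivity) hΓs
  obtain ⟨e1, -, e2, -⟩ := lam_eq hp j
  have hB : 0 ≤ Y / 𝔤.Gam j ^ 2 := by positivity
  rw [← Set.biUnion_univ]
  refine gram_of_pairs hp hj Set.univ _ (fun a b i i' => ψ a b * k i i') (N * p.l j) _ δ hB (fun i i' _ _ => ?_)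
    (fun a b _ => ?_) (fun a b hab => ?_) ?_
  · have e := dsum_comb hp j i.1 i'.1 ψ ψ (k i i') 0
    simpa using e
  · by_cases h0 : ψ a b = 0
    · exact (PR.zero p 𝔤 _ a b hB).congr hp fun i i' _ _ => by simp [h0]
    have hLK : LK 𝔤.w 𝔤.S (p.lam j) (box a (20 * p.lam j) ∪ box b (20 * p.lam j)) (|Ck| + 1) k := fun i i' hi hi' => by
      obtain ⟨h1, h2, h3⟩ := hk a b h0 i i' (by simpa using hi) (by simpa using hi')
      refine ⟨h1, hw ▸ h2, fun hl => ?_⟩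
      rw [hS, DU.dB_empty, DU.dB_empty, ← sq, ← sq_abs (k i i'), ← mul_pow]
      gcongr
      linarith [h3 hl, le_abs_self Ck]
    refine ((hfar p 𝔤 j a b _ _ 1 _ _ k hp hj hΓ one_pos (by positivity)
      (fun e => by rw [hw, wPl, abs_of_pos tc_pos.1]; exact tc_pos.2.le) (D3.mul_one le_rfl) (D3.mul_one le_rfl) hLK
      (hsup a b h0).2.1 (sumB 𝔤.S (n := 0) (by omega) a (by simp [hS]))).smul (hψ a b)).congr hp fun i i' _ _ => by ring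
  · funext i i'
    have : ψ a b = 0 := by
      by_contra h0
      have := (hsup a b h0).2.2
      omega
    simp [this]
  · refine (count_le (N := 100 * N) (by omega) (le_of_eq (by rw [e1]; ring)) hB).trans
      (le_trans (le_of_eq ?_) (small hX hδ hΓs))
    simp only [X]; ring

end Crest.Agent.R165
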