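import Crest.Agent.R165.D3.Cut

set_option autoImplicit false
noncomputable section
open Classical

/-! # R165/D3/Abs: from representations to Gram bounds.
* `gram_of_rep`: `2 bil g u v = bil0 g u v - bil0 g v u`, `bil0 (extG G) u v = Σ_{i,i'} u (inl i) v (inl i') G i i' = Σ_k c_k ⟨u,f_k⟩⟨v,f'_k⟩`;
  `X u k = √|c k| ⟨u, f k⟩`, `Y u k = sign (c k) √|c k| ⟨u, f' k⟩`.  `W` = the half-edges in the supports of the finitely many vectors.
* `Loc.pair`: sources pair to `0` with `extF f`; for `u ∈ Ups j x` the support is in `box x λ`.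
* `gram_of_pairs`: for `W` finite only the pairs `(a, b)` in a finite set `P` contribute (`theta_supp`); `choose` the data of `PR`
  for each pair with `supd a b ≤ R`, index type `Σ q : P, κ q`; for `u ∈ U j x` only `a ∈ box x (2λ)`, `b ∈ box a R` count:
  `(4λ+1)² (2R+1)² B/λ⁴ ≤ 25 (2R+1)² B/λ²`. -/

namespace Crest.Agent.R165.D3

theorem abs_pr_eq {I : Type} (u : GV I) (f : I → ℝ) : pr u f = ∑ i ∈ u.support, u i * f i := by
  rw [pr, Finsupp.linearCombination_apply, Finsupp.sum]; rfl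

theorem abs_pr_congr {I : Type} {u : GV I} {f f' : I → ℝ} (h : ∀ i ∈ u.support, f i = f' i) : pr u f = pr u f' := by
  rw [abs_pr_eq, abs_pr_eq]; exact Finset.sum_congr rfl fun i hi => by rw [h i hi]

theorem abs_pr_extF {u : GV Ix} {W : Finset HE} (h : ∀ i : HE, u (Sum.inl i) ≠ 0 → i ∈ W) (f : Fn) :
    pr u (extF f) = ∑ i ∈ W, u (Sum.inl i) * f i := by
  have h1 : ∑ i ∈ W, u (Sum.inl i) * f i = ∑ i ∈ W.map Function.Embedding.inl, u i * extF f i := by
    rw [Finset.sum_map]; rfl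
  rw [abs_pr_eq, h1]
  refine (Finset.sum_subset Finset.subset_union_left ?_).trans (Finset.sum_subset Finset.subset_union_right ?_).symm
  · intro i _ hi
    rw [Finsupp.notMem_support_iff.1 hi, zero_mul]
  · rintro (i | i) hi hi'
    · exact absurd (Finset.mem_map_of_mem _ (h i (Finsupp.mem_support_iff.1
        ((Finset.mem_union.1 hi).resolve_right hi')))) hi'
    · exact mul_zero _

theorem abs_bil0 (G : HE → HE → ℝ) (u v : GV Ix) : bil0 (extG G) u v = pr u (extF fun a => pr v (extF (G a))) := by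
  have h : bil0 (extG G) u v = pr u fun i => pr v (extG G i) := by
    rw [abs_pr_eq, bil0, Finsupp.linearCombination_apply, Finsupp.sum, LinearMap.sum_apply]; rfl
  rw [h]
  congr 1
  funext i
  rcases i with a | q
  · show pr v _ = pr v (extF (G a))
    congr 1; funext i'; rcases i' with b | q <;> rfl
  · show pr v _ = 0
    rw [abs_pr_eq]
    exact Finset.sum_eq_zero fun i' _ => mul_zero _

theorem gram_of_rep {U : Set (GV Ix)} {G : HE → HE → ℝ} {δ : ℝ} (Ω : Set HE)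
    (hU : ∀ u ∈ U, ∀ i : HE, u (Sum.inl i) ≠ 0 → i ∈ Ω)
    (h : ∀ W : Finset HE, ↑W ⊆ Ω → ∃ (κ : Type) (_ : Fintype κ) (c : κ → ℝ) (f f' : κ → Fn),
      (∀ i ∈ W, ∀ i' ∈ W, G i i' = ∑ k, c k * f k i * f' k i') ∧
      ∀ u ∈ U, ∑ k, |c k| * pr u (extF (f k)) ^ 2 ≤ δ ^ 2 ∧ ∑ k, |c k| * pr u (extF (f' k)) ^ 2 ≤ δ ^ 2) :
    Gram U (extG G) δ := by
  intro s hs
  let W : Finset HE := s.biUnion fun u => u.support.preimage Sum.inl Sum.inl_injective.injOn
  have hW : ∀ u ∈ s, ∀ i : HE, u (Sum.inl i) ≠ 0 → i ∈ W := fun u hu i hi =>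
    Finset.mem_biUnion.2 ⟨u, hu, Finset.mem_preimage.2 (Finsupp.mem_support_iff.2 hi)⟩
  obtain ⟨κ, inst, c, f, f', h1, h2⟩ := h W fun i hi => by
    obtain ⟨u, hu, hi⟩ := Finset.mem_biUnion.1 hi
    exact hU u (hs hu) i (Finsupp.mem_support_iff.1 (Finset.mem_preimage.1 hi))
  have hb : ∀ u ∈ s, ∀ v ∈ s, bil0 (extG G) u v = ∑ k, c k * (pr u (extF (f k)) * pr v (extF (f' k))) := by
    intro u hu v hv
    rw [abs_bil0, abs_pr_extF (hW u hu)]
    simp only [abs_pr_extF (hW u hu), abs_pr_extF (hW v hv)]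
    calc ∑ i ∈ W, u (Sum.inl i) * ∑ i' ∈ W, v (Sum.inl i') * G i i'
        = ∑ i ∈ W, ∑ i' ∈ W, ∑ k, c k * (u (Sum.inl i) * f k i * (v (Sum.inl i') * f' k i')) := by
          refine Finset.sum_congr rfl fun i hi => ?_
          rw [Finset.mul_sum]
          refine Finset.sum_congr rfl fun i' hi' => ?_
          rw [h1 i hi i' hi', Finset.mul_sum, Finset.mul_sum]
          exact Finset.sum_congr rfl fun k _ => by ring
      _ = ∑ i ∈ W, ∑ k, ∑ i' ∈ W, c k * (u (Sum.inl i) * f k i * (v (Sum.inl i') * f' k i')) :=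
          Finset.sum_congr rfl fun i _ => Finset.sum_comm
      _ = _ := by
          rw [Finset.sum_comm]
          refine Finset.sum_congr rfl fun k _ => ?_
          rw [Finset.sum_mul_sum, Finset.mul_sum]
          exact Finset.sum_congr rfl fun i _ => (Finset.mul_sum _ _ _).symm
  have hsq : ∀ k, √|c k| ^ 2 = |c k| := fun k => Real.sq_sqrt (abs_nonneg _)
  have hsg : ∀ k, (if 0 ≤ c k then (1 : ℝ) else -1) * √|c k| ^ 2 = c k := fun k => by
    rw [hsq]
    split_ifs with h0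
    · rw [one_mul, abs_of_nonneg h0]
    · rw [abs_of_neg (not_le.1 h0)]; ring
  refine ⟨κ, inst, fun u k => √|c k| * pr u (extF (f k)),
    fun u k => (if 0 ≤ c k then (1 : ℝ) else -1) * √|c k| * pr u (extF (f' k)), fun u hu v hv => ?_, fun u hu => ⟨?_, ?_⟩⟩
  · have e : 2 * bil (extG G) u v = bil0 (extG G) u v - bil0 (extG G) v u := by
      simp [bil]
    rw [e, hb u hu v hv, hb v hv u hu, ← Finset.sum_sub_distrib]
    refine Finset.sum_congr rfl fun k _ => ?_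
    linear_combination (pr v (extF (f k)) * pr u (extF (f' k)) - pr u (extF (f k)) * pr v (extF (f' k))) * hsg k
  · simp only [mul_pow, hsq]; exact (h2 u (hs hu)).1
  · refine le_trans (le_of_eq (Finset.sum_congr rfl fun k _ => ?_)) (h2 u (hs hu)).2
    rw [mul_pow, mul_pow, hsq]
    split_ifs <;> ring

theorem Loc.pair {p : Par} {𝔤 : Geom} {j : ℕ} (hj : 1 ≤ j) {a x : Site} {f : Fn} {A : ℝ} (h : Loc p 𝔤 j a f A)
    {u : GV Ix} (hu : u ∈ 𝔤.U p j x) : pr u (extF f) ^ 2 ≤ if supd x a ≤ 2 * p.lam j then A ^ 2 else 0 := by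
  rcases hu with hu | ⟨k, b, t, -, -, -, rfl⟩
  · obtain ⟨h1, h2⟩ := hu
    rw [if_neg (by omega)] at h2
    simp only [if_neg (show j ≠ 0 by omega)] at h1
    split_ifs with hx
    · obtain ⟨f', hf', e⟩ := h.2 x hx
      have e2 : pr u (extF f) = A * pr u (extF f') := by
        rw [abs_pr_eq, abs_pr_eq, Finset.mul_sum]
        refine Finset.sum_congr rfl fun i hi => ?_
        obtain ⟨i', rfl, hi'⟩ := h1 i hi
        show _ * f i' = A * (_ * f' i')
        rw [e i' hi']; ring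
      rw [e2, mul_pow]
      exact mul_le_of_le_one_right (sq_nonneg _) ((sq_le_one_iff_abs_le_one _).2 (h2 f' hf'))
    · have e2 : pr u (extF f) = 0 := by
        rw [abs_pr_eq]
        refine Finset.sum_eq_zero fun i hi => ?_
        obtain ⟨i', rfl, hi'⟩ := h1 i hi
        refine mul_eq_zero_of_right _ (by_contra fun h0 => hx ?_)
        have h3 := mem_box.1 (h.1 i' h0)
        have h4 := mem_box.1 hi'
        have h5 := supd_triangle x i'.1 a
        rw [supd_comm x i'.1] at h5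
        omega
      rw [e2]; simp
  · have e : pr (t • dz k b : GV Ix) (extF f) = 0 := by simp [pr, dz, extF]
    rw [e]
    split_ifs
    · simpa using sq_nonneg A
    · simp

theorem PR.zero (p : Par) (𝔤 : Geom) (j : ℕ) (a b : Site) {B : ℝ} (hB : 0 ≤ B) : PR p 𝔤 j a b 0 B := by
  exact ⟨Empty, inferInstance, Empty.elim, Empty.elim, Empty.elim, Empty.elim, Empty.elim, fun i i' => by simp,
    fun k => k.elim, by simp; positivity, by simp; positivity⟩
theorem PR.mono {p : Par} {𝔤 : Geom} {j : ℕ} {a b : Site} {T : HE → HE → ℝ} {B B' : ℝ} (h : PR p 𝔤 j a b T B)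
    (hB : B ≤ B') : PR p 𝔤 j a b T B' := by
  obtain ⟨κ, inst, c, f, f', A, A', h1, h2, h3, h4⟩ := h
  have : B / (p.lam j : ℝ) ^ 4 ≤ B' / (p.lam j : ℝ) ^ 4 := div_le_div_of_nonneg_right hB (by positivity)
  exact ⟨κ, inst, c, f, f', A, A', h1, h2, h3.trans this, h4.trans this⟩
theorem PR.add {p : Par} {𝔤 : Geom} {j : ℕ} {a b : Site} {T T' : HE → HE → ℝ} {B B' : ℝ} (h : PR p 𝔤 j a b T B)
    (h' : PR p 𝔤 j a b T' B') : PR p 𝔤 j a b (fun i i' => T i i' + T' i i') (B + B') := by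
  obtain ⟨κ, inst, c, f, f', A, A', h1, h2, h3, h4⟩ := h
  obtain ⟨κ₂, inst₂, c₂, f₂, f₂', A₂, A₂', k1, k2, k3, k4⟩ := h'
  refine ⟨κ ⊕ κ₂, inferInstance, Sum.elim c c₂, Sum.elim f f₂, Sum.elim f' f₂', Sum.elim A A₂, Sum.elim A' A₂',
    fun i i' => ?_, ?_, ?_, ?_⟩
  · rw [Fintype.sum_sum_type, mul_add, h1, k1]; rfl
  · rintro (k | k)
    exacts [h2 k, k2 k]
  · rw [Fintype.sum_sum_type, add_div]; exact add_le_add h3 k3
  · rw [Fintype.sum_sum_type, add_div]; exact add_le_add h4 k4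
theorem PR.smul {p : Par} {𝔤 : Geom} {j : ℕ} {a b : Site} {T : HE → HE → ℝ} {B : ℝ} (h : PR p 𝔤 j a b T B) {t : ℝ}
    (ht : |t| ≤ 1) : PR p 𝔤 j a b (fun i i' => t * T i i') B := by
  obtain ⟨κ, inst, c, f, f', A, A', h1, h2, h3, h4⟩ := h
  have key : ∀ y : κ → ℝ, ∑ k, |t * c k| * y k ^ 2 ≤ ∑ k, |c k| * y k ^ 2 := fun y =>
    Finset.sum_le_sum fun k _ => mul_le_mul_of_nonneg_right
      (by rw [abs_mul]; exact mul_le_of_le_one_left (abs_nonneg _) ht) (sq_nonneg _)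
  refine ⟨κ, inst, fun k => t * c k, f, f', A, A', fun i i' => ?_, h2, (key A).trans h3, (key A').trans h4⟩
  rw [mul_left_comm, h1, Finset.mul_sum]
  exact Finset.sum_congr rfl fun k _ => by ring
theorem PR.congr {p : Par} (hp : p.OK) {𝔤 : Geom} {j : ℕ} {a b : Site} {T T' : HE → HE → ℝ} {B : ℝ}
    (h : PR p 𝔤 j a b T B) (hT : ∀ i i' : HE, i.1 ∈ box a (p.lam j) → i'.1 ∈ box b (p.lam j) → T' i i' = T i i') :
    PR p 𝔤 j a b T' B := by
  obtain ⟨κ, inst, c, f, f', A, A', h1, h2, h3, h4⟩ := h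
  refine ⟨κ, inst, c, f, f', A, A', fun i i' => ?_, h2, h3, h4⟩
  rw [← h1]
  by_cases ha : theta p j (i.1 - a) = 0
  · simp [ha]
  by_cases hb : theta p j (i'.1 - b) = 0
  · simp [hb]
  rw [hT i i' (box_mono a (Nat.div_le_self _ _) (theta_supp hp j ha)) (box_mono b (Nat.div_le_self _ _) (theta_supp hp j hb))]

theorem abs_card (P : Finset (Site × Site)) {R : ℕ} (hP : ∀ q ∈ P, supd q.1 q.2 ≤ R) (x : Site) (r : ℕ) :
    (P.filter fun q => supd x q.1 ≤ r).card ≤ (2 * r + 1) ^ 2 * (2 * R + 1) ^ 2 ∧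
    (P.filter fun q => supd x q.2 ≤ r).card ≤ (2 * r + 1) ^ 2 * (2 * R + 1) ^ 2 := by
  rw [← card_box x r, ← card_box 0 R, ← Finset.card_product]
  constructor
  · refine Finset.card_le_card_of_injOn (fun q => (q.1, q.1 - q.2)) (fun q hq => ?_) fun q _ q' _ h => ?_
    · obtain ⟨h1, h2⟩ := Finset.mem_filter.1 hq
      exact Finset.mem_product.2 ⟨mem_box.2 (by rwa [supd_comm]), mem_box.2 (by rw [supd_sub]; exact hP q h1)⟩
    · obtain ⟨h1, h2⟩ := Prod.mk.inj h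
      exact Prod.ext h1 (by rw [h1] at h2; exact sub_right_injective h2)
  · refine Finset.card_le_card_of_injOn (fun q => (q.2, q.1 - q.2)) (fun q hq => ?_) fun q _ q' _ h => ?_
    · obtain ⟨h1, h2⟩ := Finset.mem_filter.1 hq
      exact Finset.mem_product.2 ⟨mem_box.2 (by rwa [supd_comm]), mem_box.2 (by rw [supd_sub]; exact hP q h1)⟩
    · obtain ⟨h1, h2⟩ := Prod.mk.inj h
      exact Prod.ext (by rw [h1] at h2; exact sub_left_injective h2) h1

theorem abs_sum_le {P : Finset (Site × Site)} (φ : Site × Site → Site) {x : Site} {l R : ℕ} (hl : 1 ≤ l) {B δ : ℝ} (hB : 0 ≤ B)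
    (hc : (P.filter fun q => supd x (φ q) ≤ 2 * l).card ≤ (2 * (2 * l) + 1) ^ 2 * (2 * R + 1) ^ 2)
    (hδ : 25 * (2 * R + 1) ^ 2 * B / (l : ℝ) ^ 2 ≤ δ ^ 2) {κ : P → Type} [∀ q, Fintype (κ q)]
    (c A y : ∀ q, κ q → ℝ) (hA : ∀ q, ∑ k, |c q k| * A q k ^ 2 ≤ B / (l : ℝ) ^ 4)
    (hy : ∀ q k, y q k ^ 2 ≤ if supd x (φ q) ≤ 2 * l then A q k ^ 2 else 0) :
    ∑ k : Σ q, κ q, |c k.1 k.2| * y k.1 k.2 ^ 2 ≤ δ ^ 2 := by
  have hl0 : (1 : ℝ) ≤ l := by exact_mod_cast hl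
  rw [Fintype.sum_sigma]
  calc ∑ q : P, ∑ k, |c q k| * y q k ^ 2 ≤ ∑ q : P, if supd x (φ q) ≤ 2 * l then B / (l : ℝ) ^ 4 else 0 := by
        refine Finset.sum_le_sum fun q _ => ?_
        have h := hy q
        split_ifs at h ⊢
        · exact (Finset.sum_le_sum fun k _ => mul_le_mul_of_nonneg_left (h k) (abs_nonneg _)).trans (hA q)
        · exact Finset.sum_nonpos fun k _ => mul_nonpos_of_nonneg_of_nonpos (abs_nonneg _) (h k)
    _ = (P.filter fun q => supd x (φ q) ≤ 2 * l).card * (B / (l : ℝ) ^ 4) := by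
        rw [Finset.sum_coe_sort P fun q => if supd x (φ q) ≤ 2 * l then B / (l : ℝ) ^ 4 else 0, ← Finset.sum_filter,
          Finset.sum_const, nsmul_eq_mul]
    _ ≤ ((5 * l) ^ 2 * (2 * R + 1) ^ 2) * (B / (l : ℝ) ^ 4) := by
        have h1 : ((P.filter fun q => supd x (φ q) ≤ 2 * l).card : ℝ) ≤ (2 * (2 * l) + 1) ^ 2 * (2 * R + 1) ^ 2 := by
          exact_mod_cast hc
        refine mul_le_mul_of_nonneg_right (h1.trans ?_) (by positivity)
        gcongr
        linarith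
    _ = 25 * (2 * R + 1) ^ 2 * B / (l : ℝ) ^ 2 := by field_simp; ring
    _ ≤ δ ^ 2 := hδ

theorem gram_of_pairs {p : Par} (hp : p.OK) {𝔤 : Geom} {j : ℕ} (hj : 1 ≤ j) (𝒳 : Set Site) (G : HE → HE → ℝ)
    (T : Site → Site → HE → HE → ℝ) (R : ℕ) (B δ : ℝ) (hB : 0 ≤ B)
    (hG : ∀ i i' : HE, (∃ x ∈ 𝒳, i.1 ∈ box x (p.lam j)) → (∃ x ∈ 𝒳, i'.1 ∈ box x (p.lam j)) →
      G i i' = ∑ᶠ a, ∑ᶠ b, theta p j (i.1 - a) * theta p j (i'.1 - b) * T a b i i')
    (hT : ∀ a b, supd a b ≤ R → PR p 𝔤 j a b (T a b) B) (h0 : ∀ a b, R < supd a b → T a b = 0)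
    (hδ : 25 * (2 * R + 1) ^ 2 * B / (p.lam j : ℝ) ^ 2 ≤ δ ^ 2) : Gram (⋃ x ∈ 𝒳, 𝔤.U p j x) (extG G) δ := by
  refine gram_of_rep {i | ∃ x ∈ 𝒳, i.1 ∈ box x (p.lam j)} (fun u hu i hi => ?_) fun W hW => ?_
  · obtain ⟨x, hx, hu⟩ := Set.mem_iUnion₂.1 hu
    rcases hu with hu | ⟨k, b, t, -, -, -, rfl⟩
    · obtain ⟨a, ha, ha'⟩ := hu.1 _ (Finsupp.mem_support_iff.2 hi)
      obtain rfl := Sum.inl_injective ha
      rw [if_neg (by omega)] at ha'
      exact ⟨x, hx, ha'⟩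
    · simp [dz] at hi
  let A₀ : Finset Site := W.biUnion fun i => box i.1 (p.lam j)
  have hA₀ : ∀ i ∈ W, ∀ a, theta p j (i.1 - a) ≠ 0 → a ∈ A₀ := fun i hi a ha =>
    Finset.mem_biUnion.2 ⟨i, hi, mem_box.2 (by
      rw [supd_comm]; exact (mem_box.1 (theta_supp hp j ha)).trans (Nat.div_le_self _ _))⟩
  let P : Finset (Site × Site) := (A₀ ×ˢ A₀).filter fun q => supd q.1 q.2 ≤ R
  have hP : ∀ q ∈ P, supd q.1 q.2 ≤ R := fun q hq => (Finset.mem_filter.1 hq).2
  choose κ inst c f f' A A' h1 h2 h3 h4 using fun q : P => hT q.1.1 q.1.2 (hP q.1 q.2)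
  have hl : 1 ≤ p.lam j := le_trans (by norm_num) (lam_eq hp j).2.2.1
  refine ⟨Σ q, κ q, inferInstance, fun k => c k.1 k.2, fun k => f k.1 k.2, fun k => f' k.1 k.2, fun i hi i' hi' => ?_,
    fun u hu => ?_⟩
  · rw [hG i i' (hW hi) (hW hi'), Fintype.sum_sigma]
    simp only [← h1]
    rw [Finset.sum_coe_sort P fun q => theta p j (i.1 - q.1) * theta p j (i'.1 - q.2) * T q.1 q.2 i i', Finset.sum_filter,
      Finset.sum_product, finsum_eq_sum_of_support_subset (s := A₀)]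
    · refine Finset.sum_congr rfl fun a _ => ?_
      rw [finsum_eq_sum_of_support_subset (s := A₀)]
      · refine Finset.sum_congr rfl fun b _ => ?_
        split_ifs with hab
        · rfl
        · simp [h0 a b (not_le.1 hab)]
      · intro b hb
        exact hA₀ i' hi' b fun h => hb (by simp [h])
    · intro a ha
      exact hA₀ i hi a fun h => ha (by simp [h])
  · obtain ⟨x, -, hu⟩ := Set.mem_iUnion₂.1 hu
    exact ⟨abs_sum_le Prod.fst hl hB (abs_card P hP x _).1 hδ c A _ h3 fun q k => (h2 q k).1.pair hj hu,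
      abs_sum_le Prod.snd hl hB (abs_card P hP x _).2 hδ c A' _ h4 fun q k => (h2 q k).2.pair hj hu⟩

end Crest.Agent.R165.D3
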