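import Crest.Agent.R165.D3.Defs

set_option autoImplicit false
noncomputable section
open Classical

/-! # R165/D3/Cut: convolutions, `θ`, `χ`, `η`.
`cut r` has the properties of `exists_cutoff.choose_spec`; `bump r ≥ 0`, supported in `box 0 (2r)`, sum `1` (the denominator is `≥ 1`).
`θ_j`: induction on `j`; support radius `λ_j/2 + 2 (λ_{j+1}/8) ≤ λ_{j+1}/2` (`lam_eq`).  For a probability kernel `f` supported in
`box 0 r`, `conv f g x` is an average of the values of `g` on `box x r` (`conv_avg`). -/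

namespace Crest.Agent.R165
namespace D3

/-- symmetric probability kernels supported in `box 0 r` -/
structure Prob (r : ℕ) (f : Site → ℝ) : Prop where
  nonneg : ∀ x, 0 ≤ f x
  supp : ∀ x, f x ≠ 0 → x ∈ box 0 r
  sum : ∑ x ∈ box 0 r, f x = 1
  neg : ∀ x, f (-x) = f x
  rot : ∀ x, f (rotS x) = f x
  ref : ∀ x, f (refS x) = f x

theorem conv_eq_sum {r : ℕ} {f : Site → ℝ} (hf : ∀ x, f x ≠ 0 → x ∈ box 0 r) (g : Site → ℝ) (x : Site) :
    conv f g x = ∑ y ∈ box 0 r, f y * g (x - y) := by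
  refine finsum_eq_sum_of_support_subset _ fun y hy => ?_
  exact Finset.mem_coe.2 (hf y (left_ne_zero_of_mul hy))
theorem Prob.mono {r r' : ℕ} {f : Site → ℝ} (hf : Prob r f) (h : r ≤ r') : Prob r' f := by
  refine ⟨hf.nonneg, fun x hx => box_mono 0 h (hf.supp x hx), ?_, hf.neg, hf.rot, hf.ref⟩
  rw [← hf.sum]
  exact (Finset.sum_subset (box_mono 0 h) fun x _ hx => by_contra fun h0 => hx (hf.supp x h0)).symm
theorem cut_conv_sym {e : Site → Site} (he : Function.Bijective e) (hs : ∀ x y, e (x - y) = e x - e y)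
    {f g : Site → ℝ} (hf : ∀ x, f (e x) = f x) (hg : ∀ x, g (e x) = g x) (x : Site) :
    conv f g (e x) = conv f g x := by
  refine (finsum_eq_of_bijective e he fun y => ?_).symm
  rw [hf, ← hs, hg]
theorem cut_neg_bij : Function.Bijective fun x : Site => -x := neg_bijective
theorem cut_rot_bij : Function.Bijective rotS :=
  Function.bijective_iff_has_inverse.2 ⟨fun x => (x.2, -x.1), fun x => by simp [rotS], fun x => by simp [rotS]⟩
theorem cut_ref_bij : Function.Bijective refS :=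
  Function.Involutive.bijective fun x => by simp [refS]
theorem cut_neg_sub (x y : Site) : -(x - y) = -x - -y := by abel
theorem cut_rot_sub (x y : Site) : rotS (x - y) = rotS x - rotS y := by
  simp only [rotS, Prod.fst_sub, Prod.snd_sub, Prod.mk_sub_mk]; congr 1; ring
theorem cut_ref_sub (x y : Site) : refS (x - y) = refS x - refS y := by
  simp only [refS, Prod.fst_sub, Prod.snd_sub, Prod.mk_sub_mk]; congr 1; ring
theorem cut_supd_neg (x : Site) : supd (-x) 0 = supd x 0 := by simp [supd]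
theorem cut_supd_rot (x : Site) : supd (rotS x) 0 = supd x 0 := by simp [supd, rotS, max_comm]
theorem cut_supd_ref (x : Site) : supd (refS x) 0 = supd x 0 := by simp [supd, refS]
theorem cut_sub_mem {x y : Site} {r : ℕ} (hy : y ∈ box 0 r) : x - y ∈ box x r := by
  rw [mem_box'] at hy ⊢
  simp only [Prod.fst_zero, Prod.snd_zero, Prod.fst_sub, Prod.snd_sub] at hy ⊢
  omega
theorem cut_add_mem {x y : Site} {r r' : ℕ} (hy : y ∈ box 0 r) (hx : x - y ∈ box 0 r') : x ∈ box 0 (r + r') := by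
  rw [mem_box'] at hx hy ⊢
  simp only [Prod.fst_zero, Prod.snd_zero, Prod.fst_sub, Prod.snd_sub] at hx hy ⊢
  push_cast; omega

theorem Prob.conv {r r' : ℕ} {f g : Site → ℝ} (hf : Prob r f) (hg : Prob r' g) : Prob (r + r') (conv f g) := by
  refine ⟨fun x => ?_, fun x hx => ?_, ?_, cut_conv_sym cut_neg_bij cut_neg_sub hf.neg hg.neg,
    cut_conv_sym cut_rot_bij cut_rot_sub hf.rot hg.rot, cut_conv_sym cut_ref_bij cut_ref_sub hf.ref hg.ref⟩
  · rw [conv_eq_sum hf.supp]
    exact Finset.sum_nonneg fun y _ => mul_nonneg (hf.nonneg _) (hg.nonneg _)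
  · rw [conv_eq_sum hf.supp] at hx
    obtain ⟨y, hy, h⟩ := Finset.exists_ne_zero_of_sum_ne_zero hx
    exact cut_add_mem hy (hg.supp _ (right_ne_zero_of_mul h))
  · simp only [conv_eq_sum hf.supp]
    rw [Finset.sum_comm, ← hf.sum]
    refine Finset.sum_congr rfl fun y hy => ?_
    have h1 : ∑ x ∈ box 0 (r + r'), g (x - y) = ∑ᶠ x, g (x - y) :=
      (finsum_eq_sum_of_support_subset _ fun x hx => Finset.mem_coe.2 (cut_add_mem hy (hg.supp _ hx))).symm
    have h2 : ∑ᶠ x, g (x - y) = ∑ᶠ x, g x := finsum_eq_of_bijective (fun x => x - y) (Equiv.subRight y).bijective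
      fun _ => rfl
    have h3 : ∑ᶠ x, g x = ∑ x ∈ box 0 r', g x :=
      finsum_eq_sum_of_support_subset _ fun x hx => Finset.mem_coe.2 (hg.supp _ hx)
    rw [← Finset.mul_sum, h1, h2, h3, hg.sum, mul_one]
theorem prob_bump {r : ℕ} (hr : 1 ≤ r) : Prob (2 * r) (bump r) := by
  obtain ⟨C, hC⟩ := exists_cutoff.choose_spec
  obtain ⟨h1, h2, h3, h4, -⟩ := hC r hr
  change ∀ y, 0 ≤ cut r y ∧ cut r y ≤ 1 at h1
  change ∀ y ∈ box 0 r, cut r y = 1 at h2
  change ∀ y, y ∉ box 0 (2 * r) → cut r y = 0 at h3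
  change ∀ y : Site, cut r (-y) = cut r y ∧ cut r (y.2, -y.1) = cut r y ∧ cut r (y.1, -y.2) = cut r y at h4
  have hd : 0 < ∑ y ∈ box 0 (2 * r), cut r y :=
    Finset.sum_pos' (fun y _ => (h1 y).1) ⟨0, self_mem_box _ _, by rw [h2 0 (self_mem_box _ _)]; exact one_pos⟩
  refine ⟨fun x => div_nonneg (h1 x).1 hd.le, fun x hx => by_contra fun h => hx ?_, ?_, fun x => ?_, fun x => ?_,
    fun x => ?_⟩
  · rw [bump, h3 x h, zero_div]
  · simp only [bump]; rw [← Finset.sum_div, div_self hd.ne']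
  · rw [bump, bump, (h4 x).1]
  · rw [bump, bump, ← (h4 (rotS x)).2.1]; simp [rotS]
  · rw [bump, bump, refS, (h4 x).2.2]
theorem prob_theta {p : Par} (hp : p.OK) (j : ℕ) : Prob (p.lam j / 2) (theta p j) := by
  induction j with
  | zero =>
    refine Prob.mono (r := 0) ⟨fun x => ?_, fun x hx => ?_, ?_, fun x => ?_, fun x => ?_, fun x => ?_⟩ (Nat.zero_le _)
    · simp only [theta]; split_ifs <;> norm_num
    · simp only [theta, ne_eq, ite_eq_right_iff, one_ne_zero, imp_false, not_not] at hx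
      rw [hx]; exact self_mem_box _ _
    · simp only [theta]; rw [Finset.sum_ite_eq', if_pos (self_mem_box _ _)]
    · simp only [theta, neg_eq_zero]
    · simp only [theta, rotS, Prod.ext_iff, Prod.fst_zero, Prod.snd_zero, neg_eq_zero, and_comm]
    · simp only [theta, refS, Prod.ext_iff, Prod.fst_zero, Prod.snd_zero, neg_eq_zero]
  | succ j ih =>
    obtain ⟨-, -, -, -, h1, -⟩ := lam_eq hp j
    obtain ⟨-, -, h2, -⟩ := lam_eq hp (j + 1)
    exact (ih.conv (prob_bump (r := p.lam (j + 1) / 8) (by omega))).mono (by omega)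
theorem conv_avg {r : ℕ} {f : Site → ℝ} (hf : Prob r f) (g : Site → ℝ) (x : Site) {lo hi : ℝ}
    (h : ∀ y ∈ box x r, lo ≤ g y ∧ g y ≤ hi) : lo ≤ conv f g x ∧ conv f g x ≤ hi := by
  rw [conv_eq_sum hf.supp]
  constructor
  · calc lo = ∑ y ∈ box 0 r, f y * lo := by rw [← Finset.sum_mul, hf.sum, one_mul]
      _ ≤ _ := Finset.sum_le_sum fun y hy => mul_le_mul_of_nonneg_left (h _ (cut_sub_mem hy)).1 (hf.nonneg y)
  · calc _ ≤ ∑ y ∈ box 0 r, f y * hi :=
        Finset.sum_le_sum fun y hy => mul_le_mul_of_nonneg_left (h _ (cut_sub_mem hy)).2 (hf.nonneg y)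
      _ = hi := by rw [← Finset.sum_mul, hf.sum, one_mul]
theorem theta_supp {p : Par} (hp : p.OK) (j : ℕ) {x a : Site} (h : theta p j (x - a) ≠ 0) : x ∈ box a (p.lam j / 2) := by
  have := (prob_theta hp j).supp _ h
  rwa [mem_box, supd_sub, ← mem_box] at this
/-- `η` only sees the part of `F` within `4 ℓ_j` -/
theorem eta_congr {p : Par} (hp : p.OK) (j : ℕ) {F F' : Set Site} {x : Site}
    (h : ∀ b, supd x b < 4 * p.l j → (b ∈ F ↔ b ∈ F')) : eta p j F x = eta p j F' x := by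
  obtain ⟨h1, -, h2, -⟩ := lam_eq hp j
  simp only [eta, conv_eq_sum (prob_theta hp j).supp]
  refine Finset.sum_congr rfl fun y hy => ?_
  have h3 := mem_box.1 (cut_sub_mem (x := x) hy)
  have h4 : ∀ b, supd (x - y) b ≤ 3 * p.l j → supd x b < 4 * p.l j := fun b hb => by
    have := supd_triangle x (x - y) b
    rw [supd_comm x (x - y)] at this
    omega
  congr 2
  exact propext ⟨fun ⟨b, hb, hb'⟩ => ⟨b, (h b (h4 b hb')).1 hb, hb'⟩,
    fun ⟨b, hb, hb'⟩ => ⟨b, (h b (h4 b hb')).2 hb, hb'⟩⟩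

theorem cut_conv_const {r : ℕ} {f : Site → ℝ} (hf : Prob r f) {g : Site → ℝ} {x : Site} {c : ℝ}
    (h : ∀ y ∈ box x r, g y = c) : conv f g x = c := by
  have := conv_avg hf g x (lo := c) (hi := c) fun y hy => ⟨(h y hy).ge, (h y hy).le⟩
  exact le_antisymm this.2 this.1

end D3

theorem chi_props {p : Par} (hp : p.OK) (j : ℕ) (x : Site) :
    (0 ≤ chi p j x ∧ chi p j x ≤ 1) ∧ (1 ≤ j → supd x 0 ≤ 29 * p.lam j → chi p j x = 1) ∧
    (31 * p.lam j < supd x 0 → chi p j x = 0) ∧ chi p j (-x) = chi p j x ∧ chi p j (rotS x) = chi p j x ∧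
    chi p j (refS x) = chi p j x := by
  by_cases hj : j = 0
  · simp [chi, hj]
  have hθ := D3.prob_theta hp j
  simp only [chi, if_neg hj]
  refine ⟨D3.conv_avg hθ _ _ fun y _ => D3.conv_avg hθ _ _ fun z _ => by split_ifs <;> norm_num,
    fun _ hx => D3.cut_conv_const hθ fun y hy => D3.cut_conv_const hθ fun z hz => if_pos ?_,
    fun hx => D3.cut_conv_const hθ fun y hy => D3.cut_conv_const hθ fun z hz => if_neg ?_,
    D3.cut_conv_sym D3.cut_neg_bij D3.cut_neg_sub hθ.neg (D3.cut_conv_sym D3.cut_neg_bij D3.cut_neg_sub hθ.neg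
      fun a => by rw [D3.cut_supd_neg]) x,
    D3.cut_conv_sym D3.cut_rot_bij D3.cut_rot_sub hθ.rot (D3.cut_conv_sym D3.cut_rot_bij D3.cut_rot_sub hθ.rot
      fun a => by rw [D3.cut_supd_rot]) x,
    D3.cut_conv_sym D3.cut_ref_bij D3.cut_ref_sub hθ.ref (D3.cut_conv_sym D3.cut_ref_bij D3.cut_ref_sub hθ.ref
      fun a => by rw [D3.cut_supd_ref]) x⟩
  · rw [mem_box] at hy hz
    have h1 := supd_triangle z y 0
    have h2 := supd_triangle y x 0
    omega
  · rw [mem_box, supd_comm] at hy hz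
    have h1 := supd_triangle x y 0
    have h2 := supd_triangle y z 0
    omega

theorem eta_props {p : Par} (hp : p.OK) (j : ℕ) (F : Set Site) (x : Site) :
    (0 ≤ eta p j F x ∧ eta p j F x ≤ 1) ∧ ((∃ b ∈ F, supd x b ≤ 2 * p.l j) → eta p j F x = 1) ∧
    ((∀ b ∈ F, 4 * p.l j ≤ supd x b) → eta p j F x = 0) ∧
    ∀ a, eta p j ((fun b => b + a) '' F) (x + a) = eta p j F x := by
  have hθ := D3.prob_theta hp j
  obtain ⟨h1, -, h2, -⟩ := D3.lam_eq hp j
  refine ⟨D3.conv_avg hθ _ _ fun y _ => by split_ifs <;> norm_num,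
    fun hx => D3.cut_conv_const hθ fun y hy => if_pos ?_,
    fun hx => D3.cut_conv_const hθ fun y hy => if_neg ?_, fun a => ?_⟩
  · obtain ⟨b, hb, hx⟩ := hx
    refine ⟨b, hb, ?_⟩
    rw [mem_box] at hy
    have h3 := supd_triangle y x b
    omega
  · rintro ⟨b, hb, hb'⟩
    rw [mem_box, supd_comm] at hy
    have h3 := supd_triangle x y b
    have h4 := hx b hb
    omega
  · simp only [eta, conv]
    refine finsum_congr fun y => ?_
    congr 2
    rw [show x + a - y = x - y + a by abel]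
    exact propext ⟨fun ⟨_, ⟨b, hb, rfl⟩, hb'⟩ => ⟨b, hb, by rwa [supd_add] at hb'⟩,
      fun ⟨b, hb, hb'⟩ => ⟨_, ⟨b, hb, rfl⟩, by rwa [supd_add]⟩⟩

end Crest.Agent.R165
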