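import Crest.Agent.R165.D.Defs

set_option autoImplicit false
noncomputable section
open Classical

/-! # R165 block D3: auxiliary definitions (frozen) -/

namespace Crest.Agent.R165

/-- admissible scale parameters -/
def Par.OK (p : Par) : Prop := 400 ≤ p.L ∧ 800 ∣ p.l0 ∧ 0 < p.l0 ∧ 20 ≤ p.T

namespace D3

theorem lam_eq {p : Par} (hp : p.OK) (j : ℕ) : p.l j = 100 * p.lam j ∧ 8 ∣ p.lam j ∧ 8 ≤ p.lam j ∧
    p.lam (j + 1) = p.L * p.lam j ∧ 400 * p.lam j ≤ p.lam (j + 1) ∧ p.l0 ≤ p.l j := by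
  obtain ⟨hL, ⟨c, hc⟩, h0, -⟩ := hp
  have hc0 : 0 < c := by rcases c with _ | c <;> omega
  have h1 : ∀ j, p.l j = 100 * (8 * (c * p.L ^ j)) := fun j => by rw [Par.l, hc]; ring
  have h2 : ∀ j, p.lam j = 8 * (c * p.L ^ j) := fun j => by rw [Par.lam, h1, Nat.mul_div_cancel_left _ (by norm_num)]
  have h3 : 0 < p.L ^ j := pow_pos (by omega) j
  have h4 : 0 < c * p.L ^ j := Nat.mul_pos hc0 h3
  have h5 : p.lam (j + 1) = p.L * p.lam j := by rw [h2, h2]; ring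
  refine ⟨by rw [h1, h2], ⟨_, h2 j⟩, by rw [h2]; omega, h5, by rw [h5]; exact Nat.mul_le_mul_right _ hL, ?_⟩
  exact Nat.le_mul_of_pos_right _ h3

/-- scalar multipliers at scale `l` on the whole lattice -/
def Mul (l : ℕ) (C : ℝ) (m : Site → ℝ) : Prop :=
  ∀ x, |m x| ≤ C ∧ (∀ γ, |m (x + dv γ) - m x| ≤ C / l) ∧
    ∀ γ δ, |m (x + dv γ + dv δ) - m (x + dv γ) - m (x + dv δ) + m x| ≤ C / (l : ℝ) ^ 2

/-- local kernels on `W` -/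
def LK (w : Edge → ℝ) (S : Finset Site) (l : ℕ) (W : Set Site) (Ck : ℝ) (k : HE → HE → ℝ) : Prop :=
  ∀ i i' : HE, i.1 ∈ W → i'.1 ∈ W → k i' i = -k i i' ∧ opA w (k i) i' = (if i' = i then 1 else 0) ∧
    (l ≤ supd i.1 i'.1 → k i i' ^ 2 * (dB S l i.1 * dB S l i'.1) ≤ Ck ^ 2)

theorem LK.mono {w : Edge → ℝ} {S : Finset Site} {l : ℕ} {W W' : Set Site} {Ck : ℝ} {k : HE → HE → ℝ}
    (h : LK w S l W Ck k) (hW : W' ⊆ W) : LK w S l W' Ck k := fun i i' hi hi' => h i i' (hW hi) (hW hi')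

/-- `f` is localized at `a` and is `A` times a test function on every class box it meets -/
def Loc (p : Par) (𝔤 : Geom) (j : ℕ) (a : Site) (f : Fn) (A : ℝ) : Prop :=
  (∀ i, f i ≠ 0 → i.1 ∈ box a (p.lam j)) ∧ ∀ x, supd x a ≤ 2 * p.lam j →
    ∃ f', 𝔤.Tst p j x f' ∧ ∀ i : HE, i.1 ∈ box x (p.lam j) → f i = A * f' i

/-- representation of the piece of a covariance attached to the base points `(a, b)` -/
def PR (p : Par) (𝔤 : Geom) (j : ℕ) (a b : Site) (T : HE → HE → ℝ) (B : ℝ) : Prop :=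
  ∃ (κ : Type) (_ : Fintype κ) (c : κ → ℝ) (f f' : κ → Fn) (A A' : κ → ℝ),
    (∀ i i', theta p j (i.1 - a) * theta p j (i'.1 - b) * T i i' = ∑ k, c k * f k i * f' k i') ∧
    (∀ k, Loc p 𝔤 j a (f k) (A k) ∧ Loc p 𝔤 j b (f' k) (A' k)) ∧
    ∑ k, |c k| * A k ^ 2 ≤ B / (p.lam j : ℝ) ^ 4 ∧ ∑ k, |c k| * A' k ^ 2 ≤ B / (p.lam j : ℝ) ^ 4

/-- total weight of the contour region -/
def SumB (S : Finset Site) (l : ℕ) (a : Site) (D : ℝ) : Prop := ∑ z ∈ box a (90 * l), (dB S l z)⁻¹ ≤ D * l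

/-- the plane kernel with the signs of the spins -/
def gσ (𝔤 : Geom) (i i' : HE) : ℝ := sgn 𝔤.S i.1 i'.1 * gPl i i'

/-- `φ * 1 * φ`: `χ_{j+1} = θ_j * Ψ_j * θ_j` -/
def Psi (p : Par) (j : ℕ) (c : Site) : ℝ :=
  conv (bump (p.lam (j + 1) / 8)) (conv (bump (p.lam (j + 1) / 8)) fun a => if supd a 0 ≤ 30 * p.lam (j + 1) then 1 else 0) c

/-- the geometry seen from the base point `a`: one feature `F` with its kernels at the scales `j` and `j + 1` -/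
structure LocD (p : Par) (𝔤 : Geom) (j : ℕ) (Ck : ℝ) (a : Site) where
  F : Set Site
  k : HE → HE → ℝ
  k' : HE → HE → ℝ
  hk : ∀ l, 1 ≤ l → l ≤ p.l (j + 1) →
    LK 𝔤.w 𝔤.S l (box a (p.l (j + 1))) Ck k ∧ LK 𝔤.w 𝔤.S l (box a (p.l (j + 1))) Ck k'
  hσ : ∀ l R, 1 ≤ l → R ≤ p.l (j + 1) → (∀ b ∈ F, R + 5 ≤ supd a b) → LK 𝔤.w 𝔤.S l (box a R) Ck (gσ 𝔤)
  hl : ∀ i i' : HE, i.1 ∈ box a (p.l (j + 1)) → i'.1 ∈ box a (p.l (j + 1)) →
    𝔤.gloc p j i i' = gσ 𝔤 i i' + eta p j F i.1 * eta p j F i'.1 * (k i i' - gσ 𝔤 i i')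
  hl' : ∀ i i' : HE, i.1 ∈ box a (p.l (j + 1)) → i'.1 ∈ box a (p.l (j + 1)) →
    𝔤.gloc p (j + 1) i i' = gσ 𝔤 i i' + eta p (j + 1) F i.1 * eta p (j + 1) F i'.1 * (k' i i' - gσ 𝔤 i i')

end D3
end Crest.Agent.R165
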