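import Crest.Agent.R165.D3.Cut

set_option autoImplicit false
noncomputable section
open Classical

/-! # R165/D3/Der: multipliers.
`bump r` has `Mul r (C / r²)` (denominator `≥ (2r+1)²`); convolution with a probability kernel on the left preserves `Mul`
(differences fall on the second factor, `conv_avg`); `r = λ/8`.  For `η = θ * 1`: write `conv θ g x = Σ_y θ (x - y) g y`, the differences
fall on `θ`, at most `(λ + 5)²` terms. -/

namespace Crest.Agent.R165.D3

theorem Mul.shift {l : ℕ} {C : ℝ} {m : Site → ℝ} (h : Mul l C m) (a : Site) : Mul l C fun x => m (x - a) := by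
  intro x
  obtain ⟨h1, h2, h3⟩ := h (x - a)
  refine ⟨h1, fun γ => ?_, fun γ δ => ?_⟩
  · simpa only [add_sub_right_comm] using h2 γ
  · simpa only [add_sub_right_comm] using h3 γ δ
theorem Mul.mono {l l' : ℕ} {C C' : ℝ} {m : Site → ℝ} (h : Mul l' C m) (hl : 1 ≤ l) (hl' : l ≤ l') (hC : C ≤ C') :
    Mul l C' m := by
  intro x
  obtain ⟨h1, h2, h3⟩ := h x
  have h0 : 0 ≤ C := (abs_nonneg _).trans h1
  have hl0 : (0 : ℝ) < l := by exact_mod_cast hl
  have hl1 : (l : ℝ) ≤ l' := by exact_mod_cast hl'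
  exact ⟨h1.trans hC, fun γ => (h2 γ).trans (by gcongr; exact h0.trans hC),
    fun γ δ => (h3 γ δ).trans (by gcongr; exact h0.trans hC)⟩
theorem Mul.mul {l : ℕ} {C C' : ℝ} {m m' : Site → ℝ} (h : Mul l C m) (h' : Mul l C' m') :
    Mul l (4 * C * C') fun x => m x * m' x := by
  intro x
  have k : ∀ {a b A B : ℝ}, |a| ≤ A → |b| ≤ B → |a * b| ≤ A * B := fun ha hb => by
    rw [abs_mul]; exact mul_le_mul ha hb (abs_nonneg _) ((abs_nonneg _).trans ha)
  have h0 : 0 ≤ C := (abs_nonneg _).trans (h x).1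
  have h0' : 0 ≤ C' := (abs_nonneg _).trans (h' x).1
  have hp : 0 ≤ C * C' := mul_nonneg h0 h0'
  refine ⟨(k (h x).1 (h' x).1).trans (by nlinarith), fun γ => ?_, fun γ δ => ?_⟩
  · have a1 := k ((h x).2.1 γ) (h' (x + dv γ)).1
    have a2 := k (h x).1 ((h' x).2.1 γ)
    have e : m (x + dv γ) * m' (x + dv γ) - m x * m' x =
      (m (x + dv γ) - m x) * m' (x + dv γ) + m x * (m' (x + dv γ) - m' x) := by ring
    have hq : 0 ≤ C * C' / l := by positivity
    beta_reduce
    rw [e]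
    refine (abs_add_le _ _).trans ((add_le_add a1 a2).trans ?_)
    have e2 : C / l * C' + C * (C' / l) = 2 * (C * C' / l) := by ring
    have e3 : 4 * C * C' / l = 4 * (C * C' / l) := by ring
    rw [e2, e3]
    linarith
  · have a1 := k ((h x).2.2 γ δ) (h' (x + dv γ + dv δ)).1
    have a2 := k ((h x).2.1 γ) ((h' (x + dv γ)).2.1 δ)
    have a3 := k ((h x).2.1 δ) ((h' (x + dv δ)).2.1 γ)
    have a4 := k (h x).1 ((h' x).2.2 γ δ)
    rw [add_right_comm x (dv δ) (dv γ)] at a3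
    have e : m (x + dv γ + dv δ) * m' (x + dv γ + dv δ) - m (x + dv γ) * m' (x + dv γ) - m (x + dv δ) * m' (x + dv δ) +
        m x * m' x =
      (m (x + dv γ + dv δ) - m (x + dv γ) - m (x + dv δ) + m x) * m' (x + dv γ + dv δ) +
        (m (x + dv γ) - m x) * (m' (x + dv γ + dv δ) - m' (x + dv γ)) +
        (m (x + dv δ) - m x) * (m' (x + dv γ + dv δ) - m' (x + dv δ)) +
        m x * (m' (x + dv γ + dv δ) - m' (x + dv γ) - m' (x + dv δ) + m' x) := by ring
    beta_reduce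
    rw [e]
    refine (abs_add_le _ _).trans ((add_le_add ((abs_add_le _ _).trans (add_le_add ((abs_add_le _ _).trans
      (add_le_add a1 a2)) a3)) a4).trans (le_of_eq ?_))
    ring
theorem mul_one {l : ℕ} {C : ℝ} (hC : 1 ≤ C) : Mul l C fun _ => 1 := by
  intro x
  have h0 : 0 ≤ C := zero_le_one.trans hC
  refine ⟨by simpa using hC, fun γ => ?_, fun γ δ => ?_⟩
  · simp only [sub_self, abs_zero]; positivity
  · simp only [sub_self, zero_sub, neg_add_cancel, abs_zero]; positivity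
theorem Mul.toMult {l : ℕ} {C : ℝ} {m : Site → ℝ} (h : Mul l C m) (hC : 0 < C) (W : Set Site) :
    Mult W l fun i => m i.1 / C := by
  intro x _ α β γ δ
  obtain ⟨h1, h2, h3⟩ := h x
  have k : ∀ {a b : ℝ}, |a| ≤ C / b → |a / C| ≤ 1 / b := fun {a b} ha => by
    rw [abs_div, abs_of_pos hC, div_le_iff₀ hC]
    exact ha.trans (le_of_eq (by ring))
  refine ⟨by simpa using k (b := 1) (by simpa using h1), ?_, ?_, ?_, ?_⟩
  · simp only [sub_self, abs_zero]; positivity
  · simp only [dif]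
    rw [← sub_div]
    exact k (h2 γ)
  · simp only [dif]
    rw [← sub_div, ← sub_div, ← sub_div]
    refine k ?_
    have := h3 δ γ
    rwa [show m (x + dv δ + dv γ) - m (x + dv δ) - m (x + dv γ) + m x =
      m (x + dv δ + dv γ) - m (x + dv δ) - (m (x + dv γ) - m x) by ring] at this
  · simp only [dif, sub_self, abs_zero]; positivity

theorem der_scale {r : ℕ} {c : ℝ} {m : Site → ℝ} (h : Mul r c m) : Mul (8 * r) (64 * c) m := by
  intro x
  obtain ⟨h1, h2, h3⟩ := h x
  have h0 : 0 ≤ c := (abs_nonneg _).trans h1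
  refine ⟨h1.trans (by linarith), fun γ => (h2 γ).trans ?_, fun γ δ => (h3 γ δ).trans (le_of_eq ?_)⟩
  · have : 0 ≤ c / r := by positivity
    have e : 64 * c / ((8 * r : ℕ) : ℝ) = 8 * (c / r) := by push_cast; ring
    rw [e]
    linarith
  · push_cast; ring

theorem der_conv {r l : ℕ} {C : ℝ} {f g : Site → ℝ} (hf : Prob r f) (hg : Mul l C g) : Mul l C (conv f g) := by
  intro x
  have k : ∀ (u : Site → ℝ) (c : ℝ), (∀ y, |u y| ≤ c) → |conv f u x| ≤ c := fun u c hu =>
    abs_le.2 (conv_avg hf u x fun y _ => abs_le.1 (hu y))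
  refine ⟨k g C fun y => (hg y).1, fun γ => ?_, fun γ δ => ?_⟩
  · convert k _ _ fun y => (hg y).2.1 γ using 2
    simp only [conv_eq_sum hf.supp, ← Finset.sum_sub_distrib, add_sub_right_comm]
    exact Finset.sum_congr rfl fun y _ => by ring
  · convert k _ _ fun y => (hg y).2.2 γ δ using 2
    simp only [conv_eq_sum hf.supp, ← Finset.sum_sub_distrib, ← Finset.sum_add_distrib, add_sub_right_comm]
    exact Finset.sum_congr rfl fun y _ => by ring

theorem der_mul_bump : ∃ C : ℝ, 0 < C ∧ ∀ r : ℕ, 1 ≤ r → Mul r (C / (r : ℝ) ^ 2) (bump r) := by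
  obtain ⟨C, hC⟩ := exists_cutoff.choose_spec
  refine ⟨max C 1, lt_max_of_lt_right one_pos, fun r hr x => ?_⟩
  obtain ⟨h1, h2, -, -, h5, h6⟩ := hC r hr
  have hr0 : (0 : ℝ) < r := by exact_mod_cast hr
  have hN : (r : ℝ) ^ 2 ≤ ∑ y ∈ box 0 (2 * r), cut r y := by
    refine le_trans ?_ (Finset.sum_le_sum_of_subset_of_nonneg (box_mono 0 (show r ≤ 2 * r by omega)) fun y _ _ => (h1 y).1)
    rw [Finset.sum_congr rfl (f := fun y => cut r y) (g := fun _ => (1 : ℝ)) fun y hy => h2 y hy, Finset.sum_const, card_box, nsmul_eq_mul,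
      _root_.mul_one]
    push_cast
    nlinarith
  have hN0 : 0 < ∑ y ∈ box 0 (2 * r), cut r y := lt_of_lt_of_le (by positivity) hN
  have hM : 0 ≤ max C 1 := le_max_of_le_right zero_le_one
  have k : ∀ {a b : ℝ}, 0 < b → |a| ≤ max C 1 / b → |a / ∑ y ∈ box 0 (2 * r), cut r y| ≤ max C 1 / (r : ℝ) ^ 2 / b :=
    fun {a b} hb ha => by
      rw [abs_div, abs_of_pos hN0, div_right_comm]
      gcongr
  refine ⟨?_, fun γ => ?_, fun γ δ => ?_⟩
  · have := k (a := cut r x) one_pos (by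
      rw [div_one, show cut r x = exists_cutoff.choose r x from rfl, abs_of_nonneg (h1 x).1]
      exact (h1 x).2.trans (le_max_right _ _))
    rwa [div_one] at this
  · simp only [bump]
    rw [← sub_div]
    exact k hr0 ((h5 x γ).trans (by gcongr; exact le_max_left _ _))
  · simp only [bump]
    rw [← sub_div, ← sub_div, ← add_div]
    exact k (by positivity) ((h6 x γ δ).trans (by gcongr; exact le_max_left _ _))

theorem der_swap {r n : ℕ} {f : Site → ℝ} (hf : ∀ x, f x ≠ 0 → x ∈ box 0 r) (g : Site → ℝ) {x x' : Site}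
    (hx : x' ∈ box x n) : conv f g x' = ∑ z ∈ box x (n + r), f (x' - z) * g z := by
  rw [conv, ← finsum_comp_equiv (Equiv.subLeft x')]
  simp only [Equiv.subLeft_apply, sub_sub_cancel]
  refine finsum_eq_sum_of_support_subset _ fun z hz => ?_
  have h1 := mem_box.1 (hf _ (left_ne_zero_of_mul hz))
  rw [supd_sub, supd_comm] at h1
  exact box_subset_box hx le_rfl (mem_box.2 h1)

theorem exists_mul_theta : ∃ C : ℝ, 0 < C ∧ ∀ p : Par, p.OK → ∀ j, 1 ≤ j →
    Mul (p.lam j) (C / (p.lam j : ℝ) ^ 2) (theta p j) := by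
  obtain ⟨C, hC, h⟩ := der_mul_bump
  refine ⟨64 * 64 * C, by positivity, fun p hp j hj => ?_⟩
  obtain ⟨j, rfl⟩ : ∃ i, j = i + 1 := ⟨j - 1, by omega⟩
  obtain ⟨-, ⟨r, hr⟩, h8, -⟩ := lam_eq hp (j + 1)
  have hr1 : 1 ≤ r := by omega
  have e : theta p (j + 1) = conv (theta p j) (bump r) := by
    rw [theta, hr, Nat.mul_div_cancel_left _ (by norm_num)]
  have := der_scale (der_conv (prob_theta hp j) (h r hr1))
  rw [e, hr]
  convert this using 1
  have : (r : ℝ) ≠ 0 := by positivity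
  push_cast
  field_simp
  ring
theorem exists_mul_eta : ∃ C : ℝ, 1 ≤ C ∧ ∀ p : Par, p.OK → ∀ j, 1 ≤ j → ∀ F, Mul (p.lam j) C (eta p j F) := by
  obtain ⟨C, hC, h⟩ := exists_mul_theta
  refine ⟨max (4 * C) 1, le_max_right _ _, fun p hp j hj F x => ?_⟩
  have hθ := h p hp j hj
  have hP := prob_theta hp j
  obtain ⟨-, -, h8, -⟩ := lam_eq hp j
  have hl : (8 : ℝ) ≤ p.lam j := by exact_mod_cast h8
  set g : Site → ℝ := fun a => if ∃ b ∈ F, supd a b ≤ 3 * p.l j then 1 else 0 with hg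
  have hg1 : ∀ z, |g z| ≤ 1 := fun z => by simp only [hg]; split_ifs <;> simp
  have sw : ∀ x' ∈ box x 2, eta p j F x' = ∑ z ∈ box x (2 + p.lam j / 2), theta p j (x' - z) * g z :=
    fun x' hx' => der_swap hP.supp g hx'
  have hcard : ((box x (2 + p.lam j / 2)).card : ℝ) ≤ 4 * (p.lam j : ℝ) ^ 2 := by
    rw [card_box]
    have : 2 * (2 + p.lam j / 2) + 1 ≤ 2 * p.lam j := by omega
    have h2 : ((2 * (2 + p.lam j / 2) + 1 : ℕ) : ℝ) ≤ 2 * p.lam j := by exact_mod_cast this
    rw [Nat.cast_pow]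
    nlinarith [Nat.cast_nonneg (α := ℝ) (2 * (2 + p.lam j / 2) + 1)]
  have k : ∀ (u : Site → ℝ) (b : ℝ), 0 < b → (∀ z, |u z| ≤ C / (p.lam j : ℝ) ^ 2 / b) →
      |∑ z ∈ box x (2 + p.lam j / 2), u z * g z| ≤ max (4 * C) 1 / b := fun u b hb hu => by
    refine (Finset.abs_sum_le_sum_abs _ _).trans ((Finset.sum_le_card_nsmul _ _ (C / (p.lam j : ℝ) ^ 2 / b) fun z _ => ?_).trans ?_)
    · rw [abs_mul]
      exact (mul_le_of_le_one_right (abs_nonneg _) (hg1 z)).trans (hu z)
    · rw [nsmul_eq_mul]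
      refine (mul_le_mul_of_nonneg_right hcard (by positivity)).trans ?_
      rw [show 4 * (p.lam j : ℝ) ^ 2 * (C / (p.lam j : ℝ) ^ 2 / b) = 4 * C / b by field_simp]
      gcongr
      exact le_max_left _ _
  have m0 : x ∈ box x 2 := self_mem_box x 2
  have m1 : ∀ γ, x + dv γ ∈ box x 1 := fun γ => add_dv_mem_box (self_mem_box x 0) γ
  have m1' : ∀ γ, x + dv γ ∈ box x 2 := fun γ => box_mono x (by norm_num) (m1 γ)
  refine ⟨?_, fun γ => ?_, fun γ δ => ?_⟩
  · have := (eta_props hp j F x).1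
    rw [abs_of_nonneg this.1]
    exact this.2.trans (le_max_right _ _)
  · rw [sw _ (m1' γ), sw _ m0, ← Finset.sum_sub_distrib]
    simp only [← sub_mul, add_sub_right_comm]
    exact k _ _ (by linarith) fun z => (hθ (x - z)).2.1 γ
  · rw [sw _ (add_dv_mem_box (m1 γ) δ), sw _ (m1' γ), sw _ (m1' δ), sw _ m0, ← Finset.sum_sub_distrib,
      ← Finset.sum_sub_distrib, ← Finset.sum_add_distrib]
    simp only [← sub_mul, ← add_mul, add_sub_right_comm]
    exact k _ _ (by positivity) fun z => (hθ (x - z)).2.2 γ δ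

end Crest.Agent.R165.D3
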