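import Crest.Agent.R165.D3.Row
import Crest.Agent.R165.D3.Abs

set_option autoImplicit false
noncomputable section
open Classical

/-! # R165/D3/Pair: the discrete Cauchy formula. -/

namespace Crest.Agent.R165.D3

def eps (α : Fin 4) : ℝ := ![1, 1, -1, -1] α

theorem opp_eq (s : Fn) (z : HE) : opp s z.1 z.2 = eps z.2 * s (heOpp z) := by
  induction z using b1_he <;> simp [opp_0, opp_1, opp_2, opp_3, eps, heOpp_apply, dv, sub_eq_add_neg]

theorem abs_eps (α : Fin 4) : |eps α| = 1 := by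
  induction α using b1_fin4 <;> simp [eps]

/-- contour coefficients -/
def cc (w : Edge → ℝ) (a : Site) (r : ℕ) (z : HE) : ℝ :=
  -(w (edgeOf z.1 z.2) * (cut r (z.1 + dv z.2 - a) - cut r (z.1 - a)) * eps z.2)

/-- the contour -/
def ctr (w : Edge → ℝ) (a : Site) (r : ℕ) : Finset HE :=
  (box a (2 * r + 1) ×ˢ Finset.univ).filter fun z => cc w a r z ≠ 0

theorem cut_one {r : ℕ} (hr : 1 ≤ r) {x a : Site} (h : supd x a ≤ r) : cut r (x - a) = 1 :=
  (exists_cutoff.choose_spec.choose_spec r hr).2.1 _ (by rw [mem_box, supd_sub]; exact h)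

theorem cut_zero {r : ℕ} (hr : 1 ≤ r) {x a : Site} (h : 2 * r < supd x a) : cut r (x - a) = 0 :=
  (exists_cutoff.choose_spec.choose_spec r hr).2.2.1 _ (by rw [mem_box, supd_sub]; omega)

theorem cc_ne {w : Edge → ℝ} {a : Site} {r : ℕ} (hr : 1 ≤ r) {z : HE} (h : cc w a r z ≠ 0) :
    (r ≤ supd z.1 a ∧ supd z.1 a ≤ 2 * r + 1) ∧ r ≤ supd (heOpp z).1 a ∧ supd (heOpp z).1 a ≤ 2 * r + 1 := by
  have h1 : cut r (z.1 + dv z.2 - a) ≠ cut r (z.1 - a) := fun e => h (by simp [cc, e])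
  have h2 := supd_dv z.1 z.2
  have h3 := supd_triangle (z.1 + dv z.2) z.1 a
  have h4 := supd_triangle z.1 (z.1 + dv z.2) a
  rw [supd_comm z.1 (z.1 + dv z.2)] at h4
  have h5 : ¬ (supd (z.1 + dv z.2) a ≤ r ∧ supd z.1 a ≤ r) := fun e => h1 (by rw [cut_one hr e.1, cut_one hr e.2])
  have h6 : ¬ (2 * r < supd (z.1 + dv z.2) a ∧ 2 * r < supd z.1 a) := fun e =>
    h1 (by rw [cut_zero hr e.1, cut_zero hr e.2])
  change _ ∧ r ≤ supd (z.1 + dv z.2) a ∧ supd (z.1 + dv z.2) a ≤ 2 * r + 1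
  omega

theorem exists_cc : ∃ C : ℝ, 0 < C ∧ ∀ (w : Edge → ℝ) (a : Site) (r : ℕ) (z : HE), 1 ≤ r → (∀ e, |w e| ≤ 1) →
    |cc w a r z| ≤ C / r := by
  refine ⟨|exists_cutoff.choose_spec.choose| + 1, by positivity, fun w a r z hr hw => ?_⟩
  have h := (exists_cutoff.choose_spec.choose_spec r hr).2.2.2.2.1 (z.1 - a) z.2
  have e : z.1 - a + dv z.2 = z.1 + dv z.2 - a := by abel
  rw [e] at h
  have hr0 : (0 : ℝ) < r := by exact_mod_cast hr
  rw [cc, abs_neg, abs_mul, abs_mul, abs_eps, _root_.mul_one]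
  calc _ ≤ 1 * (exists_cutoff.choose_spec.choose / r) := mul_le_mul (hw _) h (abs_nonneg _) zero_le_one
    _ ≤ _ := by rw [one_mul]; gcongr; linarith [le_abs_self exists_cutoff.choose_spec.choose]

theorem cauchy (w : Edge → ℝ) (a : Site) {r : ℕ} (hr : 1 ≤ r) (s s' : Fn) (i : HE) (hi : supd i.1 a ≤ r)
    (hs : ∀ z : HE, z.1 ∈ box a (2 * r) → opA w s z = if z = i then 1 else 0)
    (hs' : ∀ z : HE, z.1 ∈ box a (2 * r) → opA w s' z = 0) :
    s' i = ∑ z ∈ ctr w a r, cc w a r z * s z * s' (heOpp z) := by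
  have hη : (Function.support fun x => cut r (x - a)).Finite :=
    (box a (2 * r)).finite_toSet.subset fun x hx => by
      by_contra h
      exact hx (cut_zero hr (by simpa [mem_box] using h))
  have g := green w _ hη s s'
  rw [finsum_eq_single _ i, hs i (by rw [mem_box]; omega), hs' i (by rw [mem_box]; omega), cut_one hr hi, bform,
    finsum_eq_sum_of_support_subset (s := ctr w a r)] at g
  · simp only [if_true, mul_zero, one_mul, zero_add] at g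
    rw [← neg_neg (s' i), ← g, ← Finset.sum_neg_distrib]
    exact Finset.sum_congr rfl fun z _ => by rw [opp_eq, cc]; ring
  · intro z hz
    have h1 : cc w a r z ≠ 0 := fun e => hz (by
      beta_reduce
      rw [opp_eq]
      have : w (edgeOf z.1 z.2) * (cut r (z.1 + dv z.2 - a) - cut r (z.1 - a)) * eps z.2 = 0 := neg_eq_zero.mp e
      linear_combination s z * s' (heOpp z) * this)
    simp only [ctr, Finset.coe_filter, Finset.mem_product, Finset.mem_univ, and_true, Set.mem_ofPred_eq, mem_box]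
    exact ⟨(cc_ne hr h1).1.2, h1⟩
  · intro z hz
    by_cases h : z.1 ∈ box a (2 * r)
    · rw [hs z h, hs' z h, if_neg hz]; ring
    · rw [cut_zero hr (by simpa [mem_box] using h), zero_mul]

theorem sum_inv_dB {S : Finset Site} {l : ℕ} (hl : 1 ≤ l) {a : Site} {D : ℝ} (hD : SumB S l a D) (Z : Finset HE)
    (hZ : ∀ z ∈ Z, supd z.1 a ≤ 90 * l) : ∑ z ∈ Z, (dB S l z.1)⁻¹ ≤ 4 * D * l := by
  calc _ ≤ ∑ z ∈ box a (90 * l) ×ˢ (Finset.univ : Finset (Fin 4)), (dB S l z.1)⁻¹ :=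
        Finset.sum_le_sum_of_subset_of_nonneg (fun z hz => by simpa [mem_box] using hZ z hz) fun z _ _ =>
          inv_nonneg.2 (zero_le_one.trans (one_le_dB S hl _))
    _ = 4 * ∑ z ∈ box a (90 * l), (dB S l z)⁻¹ := by
        rw [Finset.sum_product, Finset.mul_sum]
        exact Finset.sum_congr rfl fun x _ => by simp
    _ ≤ _ := by rw [mul_assoc]; exact mul_le_mul_of_nonneg_left hD (by norm_num)

theorem pr_term : ∃ C : ℝ, 0 < C ∧ ∀ (p : Par) (𝔤 : Geom) (j : ℕ) (a b : Site) (m m' : Site → ℝ) (Cm Ck D : ℝ)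
    (k₁ k₂ : HE → HE → ℝ) (W : Set Site) (r : ℕ), p.OK → 1 ≤ j → 0 < 𝔤.Gam j → 0 < Cm → 0 < Ck → (∀ e, |𝔤.w e| ≤ 1) →
    Mul (p.lam j) Cm m → Mul (p.lam j) Cm m' → LK 𝔤.w 𝔤.S (p.lam j) W Ck k₁ → LK 𝔤.w 𝔤.S (p.lam j) W Ck k₂ →
    6 * p.lam j ≤ r → 2 * r + 1 ≤ 90 * p.lam j → ↑(box a (2 * r + 1)) ⊆ W → ↑(box b (4 * p.lam j + 1)) ⊆ W →
    (∀ y, r ≤ supd y a → supd y a ≤ 2 * r + 1 → 5 * p.lam j + 1 ≤ supd y b) → SumB 𝔤.S (p.lam j) a D →
    PR p 𝔤 j a b (fun i i' => m i.1 * m' i'.1 * ∑ z ∈ ctr 𝔤.w a r, cc 𝔤.w a r z * k₁ i z * k₂ i' (heOpp z))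
      (C * Cm ^ 2 * Ck ^ 2 * D / 𝔤.Gam j ^ 2) := by
  obtain ⟨C₁, hC₁, hrow⟩ := loc_row
  obtain ⟨C₂, hC₂, hcc⟩ := exists_cc
  refine ⟨4 * C₂ * C₁ ^ 2, by positivity, fun p 𝔤 j a b m m' Cm Ck D k₁ k₂ W r hp hj hΓ hCm hCk hw hm hm' h₁ h₂ hr hr' hWa
    hWb hb hD => ?_⟩
  have hl : 8 ≤ p.lam j := (lam_eq hp j).2.2.1
  have hl0 : (0 : ℝ) < p.lam j := by exact_mod_cast (by omega : 0 < p.lam j)
  have hz : ∀ z : ctr 𝔤.w a r, _ := fun z => cc_ne (show 1 ≤ r by omega) (Finset.mem_filter.1 z.2).2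
  let A : HE → ℝ := fun z => C₁ * Cm * Ck / ((p.lam j : ℝ) ^ 2 * 𝔤.Gam j * Real.sqrt (dB 𝔤.S (p.lam j) z.1))
  have key : ∀ (e : HE → HE), Function.Injective e → (∀ z ∈ ctr 𝔤.w a r, supd (e z).1 a ≤ 90 * p.lam j) →
      ∑ z : ctr 𝔤.w a r, |cc 𝔤.w a r z| * A (e z) ^ 2 ≤
        4 * C₂ * C₁ ^ 2 * Cm ^ 2 * Ck ^ 2 * D / 𝔤.Gam j ^ 2 / (p.lam j : ℝ) ^ 4 := fun e he h90 => by
    have h1 := sum_inv_dB (show 1 ≤ p.lam j by omega) hD ((ctr 𝔤.w a r).image e) fun z hz => by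
      obtain ⟨y, hy, rfl⟩ := Finset.mem_image.1 hz
      exact h90 y hy
    rw [Finset.sum_image fun x _ y _ h => he h] at h1
    rw [Finset.sum_coe_sort (ctr 𝔤.w a r) fun z => |cc 𝔤.w a r z| * A (e z) ^ 2]
    calc _ ≤ ∑ z ∈ ctr 𝔤.w a r, C₂ / p.lam j * ((C₁ * Cm * Ck) ^ 2 / ((p.lam j : ℝ) ^ 4 * 𝔤.Gam j ^ 2)) *
          (dB 𝔤.S (p.lam j) (e z).1)⁻¹ := Finset.sum_le_sum fun z _ => by
          have d1 := one_le_dB 𝔤.S (show 1 ≤ p.lam j by omega) (e z).1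
          have e1 : A (e z) ^ 2 = (C₁ * Cm * Ck) ^ 2 / ((p.lam j : ℝ) ^ 4 * 𝔤.Gam j ^ 2) *
              (dB 𝔤.S (p.lam j) (e z).1)⁻¹ := by
            simp only [A, div_pow, mul_pow, Real.sq_sqrt (zero_le_one.trans d1)]
            field_simp
          rw [e1, mul_assoc (C₂ / _)]
          refine mul_le_mul_of_nonneg_right ((hcc _ a r z (by omega) hw).trans ?_) (by positivity)
          gcongr
          omega
      _ = C₂ / p.lam j * ((C₁ * Cm * Ck) ^ 2 / ((p.lam j : ℝ) ^ 4 * 𝔤.Gam j ^ 2)) *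
          ∑ z ∈ ctr 𝔤.w a r, (dB 𝔤.S (p.lam j) (e z).1)⁻¹ := by rw [Finset.mul_sum]
      _ ≤ C₂ / p.lam j * ((C₁ * Cm * Ck) ^ 2 / ((p.lam j : ℝ) ^ 4 * 𝔤.Gam j ^ 2)) * (4 * D * p.lam j) :=
          mul_le_mul_of_nonneg_left h1 (by positivity)
      _ = _ := by field_simp
  refine ⟨ctr 𝔤.w a r, inferInstance, fun z => cc 𝔤.w a r z, fun z i => theta p j (i.1 - a) * m i.1 * k₁ i z,
    fun z i => theta p j (i.1 - b) * m' i.1 * k₂ i (heOpp z), fun z => A z, fun z => A (heOpp z), fun i i' => ?_,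
    fun z => ⟨?_, ?_⟩, key id Function.injective_id fun z h => ?_, key heOpp heOpp.injective fun z h => ?_⟩
  · rw [Finset.sum_coe_sort (ctr 𝔤.w a r) fun z => cc 𝔤.w a r z * (theta p j (i.1 - a) * m i.1 * k₁ i z) *
      (theta p j (i'.1 - b) * m' i'.1 * k₂ i' (heOpp z))]
    simp only [Finset.mul_sum]
    exact Finset.sum_congr rfl fun z _ => by ring
  · refine hrow p 𝔤 j a m Cm Ck W k₁ z hp hj hΓ hCm hCk hm h₁
      (Set.Subset.trans (Finset.coe_subset.2 (box_mono a (by omega))) hWa) (hWa ?_) (by have := (hz z).1.1; omega)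
    exact Finset.mem_coe.2 (mem_box.2 (hz z).1.2)
  · exact hrow p 𝔤 j b m' Cm Ck W k₂ (heOpp z) hp hj hΓ hCm hCk hm' h₂ hWb
      (hWa (Finset.mem_coe.2 (mem_box.2 (hz z).2.2))) (hb _ (hz z).2.1 (hz z).2.2)
  · have := (hz ⟨z, h⟩).1.2
    exact this.trans hr'
  · have := (hz ⟨z, h⟩).2.2
    exact this.trans hr'

theorem pr_far : ∃ C : ℝ, 0 < C ∧ ∀ (p : Par) (𝔤 : Geom) (j : ℕ) (a b : Site) (m m' : Site → ℝ) (Cm Ck D : ℝ)
    (k : HE → HE → ℝ), p.OK → 1 ≤ j → 0 < 𝔤.Gam j → 0 < Cm → 0 < Ck → (∀ e, |𝔤.w e| ≤ 1) → Mul (p.lam j) Cm m →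
    Mul (p.lam j) Cm m' → LK 𝔤.w 𝔤.S (p.lam j) (box a (20 * p.lam j) ∪ box b (20 * p.lam j)) Ck k →
    25 * p.lam j ≤ supd a b → SumB 𝔤.S (p.lam j) a D →
    PR p 𝔤 j a b (fun i i' => m i.1 * m' i'.1 * k i i') (C * Cm ^ 2 * Ck ^ 2 * D / 𝔤.Gam j ^ 2) := by
  obtain ⟨C, hC, h⟩ := pr_term
  refine ⟨C, hC, fun p 𝔤 j a b m m' Cm Ck D k hp hj hΓ hCm hCk hw hm hm' hk hab hD => ?_⟩
  have hl : 8 ≤ p.lam j := (lam_eq hp j).2.2.1
  have inA : ∀ {y : Site}, supd y a ≤ 20 * p.lam j → y ∈ (↑(box a (20 * p.lam j)) ∪ ↑(box b (20 * p.lam j)) : Set Site) :=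
    fun hy => Or.inl (Finset.mem_coe.2 (mem_box.2 hy))
  have inB : ∀ {y : Site}, supd y b ≤ 20 * p.lam j → y ∈ (↑(box a (20 * p.lam j)) ∪ ↑(box b (20 * p.lam j)) : Set Site) :=
    fun hy => Or.inr (Finset.mem_coe.2 (mem_box.2 hy))
  have h1 := h p 𝔤 j a b m m' Cm Ck D k k _ (6 * p.lam j) hp hj hΓ hCm hCk hw hm hm' hk hk le_rfl (by omega)
    (fun y hy => inA (by have := mem_box.1 (Finset.mem_coe.1 hy); omega))
    (fun y hy => inB (by have := mem_box.1 (Finset.mem_coe.1 hy); omega))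
    (fun y _ hy => by have := supd_triangle a y b; rw [supd_comm a y] at this; omega) hD
  refine (h1.smul (t := -1) (by simp)).congr hp fun i i' hi hi' => ?_
  rw [mem_box] at hi hi'
  have h2 := cauchy 𝔤.w a (r := 6 * p.lam j) (by omega) (k i) (k i') i (by omega)
    (fun z hz => (hk i z (inA (by omega)) (inA (by have := mem_box.1 hz; omega))).2.1) fun z hz => by
      rw [(hk i' z (inB (by omega)) (inA (by have := mem_box.1 hz; omega))).2.1, if_neg]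
      rintro rfl
      have := mem_box.1 hz
      have := supd_triangle a z.1 b
      rw [supd_comm a z.1] at this
      omega
  rw [← h2, (hk i i' (inA (by omega)) (inB (by omega))).1]
  ring

theorem pr_near : ∃ C : ℝ, 0 < C ∧ ∀ (p : Par) (𝔤 : Geom) (j : ℕ) (a b : Site) (m m' : Site → ℝ) (Cm Ck D : ℝ)
    (k k' : HE → HE → ℝ), p.OK → 1 ≤ j → 0 < 𝔤.Gam j → 0 < Cm → 0 < Ck → (∀ e, |𝔤.w e| ≤ 1) → Mul (p.lam j) Cm m →
    Mul (p.lam j) Cm m' → LK 𝔤.w 𝔤.S (p.lam j) (box a (90 * p.lam j)) Ck k →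
    LK 𝔤.w 𝔤.S (p.lam j) (box a (90 * p.lam j)) Ck k' → supd a b ≤ 31 * p.lam j → SumB 𝔤.S (p.lam j) a D →
    PR p 𝔤 j a b (fun i i' => m i.1 * m' i'.1 * (k i i' - k' i i')) (C * Cm ^ 2 * Ck ^ 2 * D / 𝔤.Gam j ^ 2) := by
  obtain ⟨C, hC, h⟩ := pr_term
  refine ⟨2 * C, by positivity, fun p 𝔤 j a b m m' Cm Ck D k k' hp hj hΓ hCm hCk hw hm hm' hk hk' hab hD => ?_⟩
  have hl : 8 ≤ p.lam j := (lam_eq hp j).2.2.1
  have inA : ∀ {y : Site}, supd y a ≤ 90 * p.lam j → y ∈ (↑(box a (90 * p.lam j)) : Set Site) :=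
    fun hy => Finset.mem_coe.2 (mem_box.2 hy)
  have inB : ∀ {y : Site}, supd y b ≤ 20 * p.lam j → y ∈ (↑(box a (90 * p.lam j)) : Set Site) :=
    fun {y} hy => inA (by have := supd_triangle y b a; rw [supd_comm b a] at this; omega)
  have h1 := fun k₂ hk₂ => h p 𝔤 j a b m m' Cm Ck D k k₂ _ (40 * p.lam j) hp hj hΓ hCm hCk hw hm hm' hk hk₂ (by omega)
    (by omega) (fun y hy => inA (by have := mem_box.1 (Finset.mem_coe.1 hy); omega))
    (fun y hy => inB (by have := mem_box.1 (Finset.mem_coe.1 hy); omega))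
    (fun y hy _ => by have := supd_triangle y b a; rw [supd_comm b a] at this; omega) hD
  refine ((((h1 k hk).smul (t := -1) (by simp)).add (h1 k' hk')).congr hp fun i i' hi hi' => ?_).mono (le_of_eq (by ring))
  rw [mem_box] at hi hi'
  have h2 := cauchy 𝔤.w a (r := 40 * p.lam j) (by omega) (k i) (fun z => k i' z - k' i' z) i (by omega)
    (fun z hz => (hk i z (inA (by omega)) (inA (by have := mem_box.1 hz; omega))).2.1) fun z hz => by
      have e : opA 𝔤.w (fun z => k i' z - k' i' z) z = opA 𝔤.w (k i') z - opA 𝔤.w (k' i') z := by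
        induction z using b1_he <;> simp only [opA_0, opA_1, opA_2, opA_3, opp_0, opp_1, opp_2, opp_3] <;> ring
      rw [e, (hk i' z (inB (by omega)) (inA (by have := mem_box.1 hz; omega))).2.1,
        (hk' i' z (inB (by omega)) (inA (by have := mem_box.1 hz; omega))).2.1, sub_self]
  simp only [mul_sub, Finset.sum_sub_distrib] at h2
  rw [(hk i i' (inA (by omega)) (inB (by omega))).1, (hk' i i' (inA (by omega)) (inB (by omega))).1] at h2
  linear_combination (-(m i.1 * m' i'.1)) * h2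

end Crest.Agent.R165.D3
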