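import Crest.Agent.R165.D3.Cut

set_option autoImplicit false
noncomputable section
open Classical

/-! # R165/D3/Psi: double-sum representations of `1`, `χ_j`, `χ_{j+1}`.
All sums are finite (`conv_eq_sum`, `finsum_eq_sum_of_support_subset`); substitute `a = x - y₁`, `b = y + y₂` and use `θ(-y) = θ y`.
`χ_{j+1} = (θ_j * φ) * ((θ_j * φ) * 1) = θ_j * (θ_j * (φ * (φ * 1)))` (associativity and commutativity of `conv` for finitely
supported factors). -/

namespace Crest.Agent.R165.D3

theorem psi_sum {r : ℕ} {f : Site → ℝ} (hf : Prob r f) (g : Site → ℝ) (x : Site) :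
    ∑ᶠ a, f (x - a) * g a = ∑ c ∈ box 0 r, f c * g (x - c) := by
  rw [← conv_eq_sum hf.supp, conv, ← finsum_comp_equiv (Equiv.subLeft x)]
  simp

theorem psi_dsum {r : ℕ} {f : Site → ℝ} (hf : Prob r f) (u : Site → Site → ℝ) (x y : Site) :
    ∑ᶠ a, ∑ᶠ b, f (x - a) * f (y - b) * u a b = ∑ c ∈ box 0 r, ∑ d ∈ box 0 r, f c * f d * u (x - c) (y - d) := by
  have h1 : ∀ a, ∑ᶠ b, f (x - a) * f (y - b) * u a b = f (x - a) * ∑ d ∈ box 0 r, f d * u a (y - d) := fun a => by
    have := psi_sum hf (fun b => f (x - a) * u a b) y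
    rw [Finset.mul_sum]
    refine (finsum_congr fun b => by ring).trans (this.trans (Finset.sum_congr rfl fun d _ => by ring))
  rw [finsum_congr h1, psi_sum hf fun a => ∑ d ∈ box 0 r, f d * u a (y - d)]
  exact Finset.sum_congr rfl fun c _ => by rw [Finset.mul_sum]; exact Finset.sum_congr rfl fun d _ => by ring

theorem psi_assoc {r r' : ℕ} {f g : Site → ℝ} (hf : Prob r f) (hg : Prob r' g) (h : Site → ℝ) :
    conv (conv f g) h = conv f (conv g h) := by
  funext x
  rw [conv_eq_sum (hf.conv hg).supp, conv_eq_sum hf.supp]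
  simp only [conv_eq_sum hf.supp, Finset.sum_mul]
  rw [Finset.sum_comm]
  refine Finset.sum_congr rfl fun c hc => ?_
  rw [conv, ← finsum_comp_equiv (Equiv.subRight c), finsum_eq_sum_of_support_subset (s := box 0 (r + r')), Finset.mul_sum]
  · exact Finset.sum_congr rfl fun y _ => by simp [mul_assoc]
  · intro y hy
    have h1 := hg.supp _ (left_ne_zero_of_mul hy)
    simp only [Equiv.subRight_apply, mem_box', Finset.mem_coe, Prod.fst_sub, Prod.snd_sub, Prod.fst_zero,
      Prod.snd_zero] at h1 hc ⊢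
    push_cast
    omega

theorem psi_lcomm {r r' : ℕ} {f g : Site → ℝ} (hf : Prob r f) (hg : Prob r' g) (h : Site → ℝ) :
    conv f (conv g h) = conv g (conv f h) := by
  funext x
  rw [conv_eq_sum hf.supp, conv_eq_sum hg.supp]
  simp only [conv_eq_sum hf.supp, conv_eq_sum hg.supp, Finset.mul_sum]
  rw [Finset.sum_comm]
  exact Finset.sum_congr rfl fun c _ => Finset.sum_congr rfl fun d _ => by rw [sub_right_comm]; ring

theorem psi_bump {p : Par} (hp : p.OK) (j : ℕ) : Prob (2 * (p.lam j / 8)) (bump (p.lam j / 8)) :=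
  prob_bump (by have := (lam_eq hp j).2.2.1; omega)

theorem conv_conv_eq {r : ℕ} {f : Site → ℝ} (hf : Prob r f) (g : Site → ℝ) (x y : Site) :
    conv f (conv f g) (x - y) = ∑ᶠ a, ∑ᶠ b, f (x - a) * f (y - b) * g (a - b) := by
  rw [psi_dsum hf fun a b => g (a - b), conv_eq_sum hf.supp]
  refine Finset.sum_congr rfl fun c _ => ?_
  rw [conv_eq_sum hf.supp, Finset.mul_sum]
  refine Finset.sum_equiv (Equiv.neg Site) (fun d => ?_) fun d _ => ?_
  · simp only [Equiv.neg_apply, mem_box', Prod.fst_neg, Prod.snd_neg, Prod.fst_zero, Prod.snd_zero]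
    omega
  · rw [Equiv.neg_apply, hf.neg, mul_assoc]
    congr 3
    abel
theorem one_eq {p : Par} (hp : p.OK) (j : ℕ) (x y : Site) :
    ∑ᶠ a, ∑ᶠ b, theta p j (x - a) * theta p j (y - b) = 1 := by
  have h := psi_dsum (prob_theta hp j) (fun _ _ => 1) x y
  simp only [mul_one] at h
  rw [h, ← Finset.sum_mul_sum, (prob_theta hp j).sum, mul_one]
theorem chi_eq {p : Par} (hp : p.OK) {j : ℕ} (hj : 1 ≤ j) (x y : Site) :
    chi p j (x - y) = ∑ᶠ a, ∑ᶠ b, theta p j (x - a) * theta p j (y - b) * if supd a b ≤ 30 * p.lam j then 1 else 0 := by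
  rw [chi, if_neg (by omega), conv_conv_eq (prob_theta hp j)]
  simp only [supd_sub]
theorem chi_succ_eq {p : Par} (hp : p.OK) (j : ℕ) (x y : Site) :
    chi p (j + 1) (x - y) = ∑ᶠ a, ∑ᶠ b, theta p j (x - a) * theta p j (y - b) * Psi p j (a - b) := by
  rw [← conv_conv_eq (prob_theta hp j), chi, if_neg (by omega), theta, psi_assoc (prob_theta hp j) (psi_bump hp _),
    psi_assoc (prob_theta hp j) (psi_bump hp _), psi_lcomm (psi_bump hp _) (prob_theta hp j)]
  rfl
theorem psi_props {p : Par} (hp : p.OK) (j : ℕ) (a b : Site) : (0 ≤ Psi p j (a - b) ∧ Psi p j (a - b) ≤ 1) ∧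
    (supd a b ≤ 29 * p.lam (j + 1) → Psi p j (a - b) = 1) ∧ (31 * p.lam (j + 1) < supd a b → Psi p j (a - b) = 0) := by
  have hb := psi_bump hp (j + 1)
  have key : ∀ lo hi : ℝ, (∀ z, supd z (a - b) ≤ p.lam (j + 1) →
      lo ≤ (if supd z 0 ≤ 30 * p.lam (j + 1) then (1 : ℝ) else 0) ∧
        (if supd z 0 ≤ 30 * p.lam (j + 1) then (1 : ℝ) else 0) ≤ hi) →
      lo ≤ Psi p j (a - b) ∧ Psi p j (a - b) ≤ hi := fun lo hi h =>
    conv_avg hb _ _ fun y hy => conv_avg hb _ _ fun z hz => h z (by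
      have := supd_triangle z y (a - b)
      rw [mem_box] at hy hz
      omega)
  refine ⟨key 0 1 fun z _ => by split_ifs <;> simp, fun h => ?_, fun h => ?_⟩
  · have := key 1 1 fun z hz => by
      have h1 := supd_triangle z (a - b) 0
      rw [supd_sub] at h1
      rw [if_pos (by omega)]; simp
    linarith [this.1, this.2]
  · have := key 0 0 fun z hz => by
      have h1 := supd_triangle (a - b) z 0
      rw [supd_sub, supd_comm (a - b)] at h1
      rw [if_neg (by omega)]; simp
    linarith [this.1, this.2]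
/-- linearity of the double sums -/
theorem dsum_comb {p : Par} (hp : p.OK) (j : ℕ) (x y : Site) (u v : Site → Site → ℝ) (s t : ℝ) :
    (∑ᶠ a, ∑ᶠ b, theta p j (x - a) * theta p j (y - b) * u a b) * s -
        (∑ᶠ a, ∑ᶠ b, theta p j (x - a) * theta p j (y - b) * v a b) * t =
      ∑ᶠ a, ∑ᶠ b, theta p j (x - a) * theta p j (y - b) * (u a b * s - v a b * t) := by
  rw [psi_dsum (prob_theta hp j), psi_dsum (prob_theta hp j), psi_dsum (prob_theta hp j) fun a b => u a b * s - v a b * t]
  simp only [Finset.sum_mul, ← Finset.sum_sub_distrib]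
  exact Finset.sum_congr rfl fun c _ => Finset.sum_congr rfl fun d _ => by ring

end Crest.Agent.R165.D3
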